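import Vale.Agent.P159.T1.S.H546.KeyDefs
import Vale.Agent.P159.T1.H775.EN
import Vale.Agent.P159.T1.H565.Upm4

/-!
P159, sharp stage: the energy of the explicit field (`StmtBeF`, `StmtBeE`).
-/

set_option autoImplicit false
set_option linter.all false

open Filter Topology

namespace Vale.Agent.P159.T1.S.H546

open Vale.Agent.P159 Vale.Agent.P159.T1.D Vale.Agent.P159.T1.S
open Vale.Agent.P159.T1.H565 (Kf kf mb mb_inj mb_mb Bb ang_pos ang_lt)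

lemma min_max_id {a A' A τ : ℝ} (h1 : a ≤ A') (h2 : A' ≤ A) :
    max a (min τ A') = min (max a (min τ A)) A' := by
  rcases le_total τ A' with h | h
  · rw [min_eq_left h, min_eq_left (h.trans h2), min_eq_left]
    exact max_le h1 h
  · rw [min_eq_right h, max_eq_right h1]
    have : A' ≤ max a (min τ A) := le_max_of_le_right (le_min h h2)
    rw [min_eq_right this]

lemma clp_min {a A' A : ℝ} (ha : 0 < a) (h1 : a ≤ A') (h2 : A' ≤ A) (τ : ℝ) :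
    clp a A' τ = min (clp a A τ) (Real.log A') :=
  min_max_id (Real.log_le_log ha h1) (Real.log_le_log (ha.trans_le h1) h2)

/-- the truncated profile has the smaller gradient -/
lemma gs_clp_le {a A' A : ℝ} (ha : 0 < a) (h1 : a ≤ A') (h2 : A' ≤ A) (e : Bnd) :
    |gs (fun P => clp a A' (D.tau P)) e| ≤ |gs (fun P => clp a A (D.tau P)) e| := by
  unfold gs
  simp only
  rw [clp_min ha h1 h2, clp_min ha h1 h2]
  exact (abs_min_sub_min_le_max _ _ _ _).trans (by simp)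

/-- bound for the coefficients -/
noncomputable def ck (Y V : ℝ) (q : ℕ) : ℝ :=
  |V / (Y * ang q)| + |V / (Y * (2 * Real.pi - ang q))|

lemma ck_nonneg (Y V : ℝ) (q : ℕ) : 0 ≤ ck Y V q := by unfold ck; positivity

lemma cf_le (Y V : ℝ) (q : ℕ) (e : Bnd) : |cf Y V q e| ≤ ck Y V q := by
  unfold cf ck
  split_ifs
  · linarith [abs_nonneg (V / (Y * (2 * Real.pi - ang q)))]
  · rw [abs_neg]
    linarith [abs_nonneg (V / (Y * ang q))]

/-- the gradient of the profile of stage 1 -/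
noncomputable def g1 (n0 r : ℕ) (e : Bnd) : ℝ := gs (fun P => clp n0 ((r : ℝ) / 4) (D.tau P)) e

noncomputable def kk (Y V : ℝ) (q : ℕ) : ℝ := ck Y (V - aq q) q + 2 * ck Y V q

lemma kk_nonneg (Y V : ℝ) (q : ℕ) : 0 ≤ kk Y V q := by
  unfold kk
  linarith [ck_nonneg Y (V - aq q) q, ck_nonneg Y V q]

lemma Bm_le {Y V : ℝ} {q n0 r : ℕ} {c1 : ℝ} (hn : 1 ≤ n0) (h1 : (n0 : ℝ) ≤ c1 * r)
    (h2 : c1 * r ≤ (r : ℝ) / 4) (e : Bnd) : |Bm Y V q n0 r c1 e| ≤ kk Y V q * |g1 n0 r e| := by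
  have hn' : (0 : ℝ) < n0 := by exact_mod_cast hn
  have hg := gs_clp_le hn' h1 h2 e
  have e1 : Bm Y V q n0 r c1 e = cf Y (V - aq q) q e * gs (fun P => clp n0 (c1 * r) (D.tau P)) e +
      cf Y V q e * (gs (fun P => clp n0 ((r : ℝ) / 4) (D.tau P)) e -
        gs (fun P => clp n0 (c1 * r) (D.tau P)) e) := by
    unfold Bm Bf gs
    ring
  rw [e1]
  refine (abs_add_le _ _).trans ?_
  rw [abs_mul, abs_mul]
  have h3 : |gs (fun P => clp n0 ((r : ℝ) / 4) (D.tau P)) e -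
        gs (fun P => clp n0 (c1 * r) (D.tau P)) e| ≤ 2 * |g1 n0 r e| := by
    refine (abs_sub _ _).trans ?_
    unfold g1
    linarith
  calc |cf Y (V - aq q) q e| * |gs (fun P => clp n0 (c1 * r) (D.tau P)) e| +
        |cf Y V q e| * |gs (fun P => clp n0 ((r : ℝ) / 4) (D.tau P)) e -
        gs (fun P => clp n0 (c1 * r) (D.tau P)) e|
      ≤ ck Y (V - aq q) q * |g1 n0 r e| + ck Y V q * (2 * |g1 n0 r e|) :=
        add_le_add (mul_le_mul (cf_le _ _ _ _) hg (abs_nonneg _) (ck_nonneg _ _ _))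
          (mul_le_mul (cf_le _ _ _ _) h3 (abs_nonneg _) (ck_nonneg _ _ _))
    _ = _ := by unfold kk; ring

lemma Bm_sq {Y V : ℝ} {q n0 r : ℕ} {c1 : ℝ} (hn : 1 ≤ n0) (h1 : (n0 : ℝ) ≤ c1 * r)
    (h2 : c1 * r ≤ (r : ℝ) / 4) (e : Bnd) :
    Bm Y V q n0 r c1 e ^ 2 ≤ kk Y V q ^ 2 * g1 n0 r e ^ 2 := by
  have h := Bm_le (Y := Y) (V := V) (q := q) hn h1 h2 e
  rw [← sq_abs, ← sq_abs (g1 n0 r e), ← mul_pow]
  exact pow_le_pow_left₀ (abs_nonneg _) h 2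

lemma sum_mB (r : ℕ) (B : Bnd → ℝ) (S : Finset Bnd) :
    ∑ e ∈ S, H565.mB r B e ^ 2 = ∑ e ∈ S.image (mb r), B e ^ 2 := by
  classical
  rw [Finset.sum_image fun e _ e' _ h => mb_inj r h]
  refine Finset.sum_congr rfl fun e _ => ?_
  unfold H565.mB
  split_ifs
  · rw [neg_sq]
  · rfl

lemma Be_sq (Y V : ℝ) (q n0 r : ℕ) (κ x y s c1 : ℝ) (e : Bnd) :
    Be Y V q n0 r κ x y s c1 e ^ 2 ≤ 4 * (Bm Y V q n0 r c1 e ^ 2 +
      H565.mB r (Bm Y V q n0 r c1) e ^ 2 + Bb r κ x y s e ^ 2 + H565.mB r (Bb r κ x y s) e ^ 2) := by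
  unfold Be
  set a := Bm Y V q n0 r c1 e
  set b := H565.mB r (Bm Y V q n0 r c1) e
  set c := Bb r κ x y s e
  set d := H565.mB r (Bb r κ x y s) e
  nlinarith [sq_nonneg (a - b), sq_nonneg (a - c), sq_nonneg (a - d), sq_nonneg (b - c),
    sq_nonneg (b - d), sq_nonneg (c - d)]

/-! ### bonds inside the slits -/

lemma clp_lip (a A x y : ℝ) : |clp a A x - clp a A y| ≤ |x - y| := by
  unfold clp
  refine (abs_max_sub_max_le_max _ _ _ _).trans ?_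
  rw [sub_self, abs_zero]
  refine max_le (abs_nonneg _) ?_
  refine (abs_min_sub_min_le_max _ _ _ _).trans ?_
  rw [sub_self, abs_zero]
  exact max_le le_rfl (abs_nonneg _)

lemma tau_vert {i : ℤ} (hi : i ≠ 0) : |D.tau (i, 0) - D.tau (i, -1)| ≤ 1 / (i : ℝ) ^ 2 := by
  have hi' : (i : ℝ) ≠ 0 := by exact_mod_cast hi
  have h2 : 0 < (i : ℝ) ^ 2 := by positivity
  unfold D.tau
  push_cast
  rw [Real.log_sqrt (by positivity), Real.log_sqrt (by positivity)]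
  have h3 : Real.log ((i : ℝ) ^ 2 + 0 ^ 2) ≤ Real.log ((i : ℝ) ^ 2 + (-1) ^ 2) :=
    Real.log_le_log (by positivity) (by norm_num)
  have h4 : Real.log ((i : ℝ) ^ 2 + (-1) ^ 2) - Real.log ((i : ℝ) ^ 2 + 0 ^ 2) ≤
      1 / (i : ℝ) ^ 2 := by
    rw [← Real.log_div (by positivity) (by positivity)]
    refine (Real.log_le_sub_one_of_pos (by positivity)).trans (le_of_eq ?_)
    field_simp
    ring
  have h5 : 0 < 1 / (i : ℝ) ^ 2 := by positivity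
  generalize Real.log ((i : ℝ) ^ 2 + 0 ^ 2) = A at *
  generalize Real.log ((i : ℝ) ^ 2 + (-1) ^ 2) = B at *
  rw [abs_le]
  constructor
  · linarith
  · have : A / 2 - B / 2 ≤ 0 := by linarith
    linarith

lemma g1_vert (n0 r : ℕ) {e : Bnd} (h1 : e.1.2 = -1) (h2 : e.2 = true) (h3 : e.1.1 ≠ 0) :
    |g1 n0 r e| ≤ 1 / (e.1.1 : ℝ) ^ 2 := by
  obtain ⟨⟨i, j⟩, d⟩ := e
  simp only at h1 h2 h3 ⊢
  subst h1 h2
  unfold g1 gs
  refine (clp_lip _ _ _ _).trans ?_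
  have e1 : bt (((i, -1) : Z2), true) = (i, 0) := by simp [bt]
  have e2 : bs (((i, -1) : Z2), true) = (i, -1) := rfl
  rw [e1, e2]
  exact tau_vert h3

lemma slit_bond {r : ℕ} (hr : 1 ≤ r) {e : Bnd} (h : lf e ∈ slit r ∧ rt e ∈ slit r) :
    e.1.2 = -1 ∧ e.2 = true ∧ e.1.1 ≠ 0 ∧ (r : ℤ) - e.1.1 ≠ 0 := by
  obtain ⟨⟨i, j⟩, d⟩ := e
  obtain ⟨⟨h1, h2⟩, h3, h4⟩ := h
  cases d
  · simp only [lf, rt, Bool.false_eq_true, if_false] at h1 h2 h3 h4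
    omega
  · simp only [lf, rt, if_true] at h1 h2 h3 h4
    refine ⟨h3, rfl, ?_, ?_⟩ <;> simp only <;> omega

/-- `∑ 1 / i ^ 2` over the nonzero integers -/
noncomputable def S2 : ℝ := ∑' i : ℤ, 1 / (i : ℝ) ^ 2

lemma sum_vert {S : Finset Bnd} (h1 : ∀ e ∈ S, e.1.2 = -1 ∧ e.2 = true ∧ e.1.1 ≠ 0)
    {F : Bnd → ℝ} {k : ℝ} (hk : 0 ≤ k) (hF : ∀ e ∈ S, |F e| ≤ k * (1 / (e.1.1 : ℝ) ^ 2)) :
    ∑ e ∈ S, F e ^ 2 ≤ k ^ 2 * S2 := by
  classical
  have hs : Summable fun i : ℤ => 1 / (i : ℝ) ^ 2 := Real.summable_one_div_int_pow.2 one_lt_two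
  have hinj : Set.InjOn (fun e : Bnd => e.1.1) S := by
    rintro ⟨⟨i, j⟩, d⟩ he ⟨⟨i', j'⟩, d'⟩ he' h
    have a1 := h1 _ he
    have a2 := h1 _ he'
    simp only at a1 a2 h
    obtain ⟨rfl, rfl, -⟩ := a1
    obtain ⟨rfl, rfl, -⟩ := a2
    rw [h]
  have h2 : ∀ e ∈ S, F e ^ 2 ≤ k ^ 2 * (1 / (e.1.1 : ℝ) ^ 2) := by
    intro e he
    have h3 : (1 : ℝ) ≤ (e.1.1 : ℝ) ^ 2 := by
      have h4 := (h1 e he).2.2
      have h5 : (1 : ℤ) ≤ e.1.1 ^ 2 := by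
        have := sq_pos_of_ne_zero h4
        omega
      exact_mod_cast h5
    have h6 : 1 / (e.1.1 : ℝ) ^ 2 ≤ 1 := by
      rw [div_le_one (by linarith)]
      exact h3
    have h7 : (0 : ℝ) ≤ 1 / (e.1.1 : ℝ) ^ 2 := by positivity
    rw [← sq_abs]
    calc |F e| ^ 2 ≤ (k * (1 / (e.1.1 : ℝ) ^ 2)) ^ 2 :=
          pow_le_pow_left₀ (abs_nonneg _) (hF e he) 2
      _ = k ^ 2 * ((1 / (e.1.1 : ℝ) ^ 2) * (1 / (e.1.1 : ℝ) ^ 2)) := by ring
      _ ≤ k ^ 2 * ((1 / (e.1.1 : ℝ) ^ 2) * 1) := by gcongr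
      _ = _ := by rw [mul_one]
  refine (Finset.sum_le_sum h2).trans ?_
  rw [← Finset.mul_sum]
  refine mul_le_mul_of_nonneg_left ?_ (sq_nonneg k)
  rw [← Finset.sum_image (f := fun i : ℤ => 1 / (i : ℝ) ^ 2) hinj]
  exact hs.sum_le_tsum _ fun n _ => by positivity

lemma S2_nonneg : 0 ≤ S2 := tsum_nonneg fun n => by positivity

theorem stmtBeF : StmtBeF := by
  classical
  intro Y V κ x y s c1 q hY hV hP
  obtain ⟨hq, hκ, hs, hsy, hsx, hqy, hc1, hc2⟩ := hP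
  have hsx' : s < x := by nlinarith
  refine ⟨8 * kk Y V q ^ 2 * (2 * Real.pi), by have := Real.pi_pos; positivity, 8, ?_⟩
  intro n0 hn0
  obtain ⟨C0, hC0⟩ := H775.stmtEN q 1 1 n0 hq hn0
  refine ⟨8 * kk Y V q ^ 2 * |C0| + 8 * (κ * s ^ 8) ^ 2 + 8 * (kk Y V q ^ 2 * S2), ?_⟩
  intro r hr hnr
  have hr1 : 1 ≤ r := by omega
  have hr' : (0 : ℝ) < r := by exact_mod_cast (by omega : 0 < r)
  have hn1 : 1 ≤ n0 := by omega
  have h2 : c1 * r ≤ (r : ℝ) / 4 := by nlinarith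
  have hlog : 0 ≤ Real.log r := Real.log_nonneg (by exact_mod_cast hr1)
  have k2 : 0 ≤ kk Y V q ^ 2 := sq_nonneg _
  have hS2 := S2_nonneg
  have hkS : 0 ≤ kk Y V q ^ 2 * S2 := mul_nonneg k2 hS2
  have hg : ∀ S : Finset Bnd, ∑ e ∈ S, g1 n0 r e ^ 2 ≤ 2 * Real.pi * Real.log r + |C0| := by
    intro S
    have h3 := hC0 r hr1 S
    have h4 : ∀ e, Kf q 1 1 (clp n0 ((r : ℝ) / 4)) e = g1 n0 r e := by
      intro e
      unfold Kf kf g1
      split_ifs <;> ring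
    simp only [h4] at h3
    have h5 : ((1 : ℝ) ^ 2 * ang q + 1 ^ 2 * (2 * Real.pi - ang q)) = 2 * Real.pi := by ring
    rw [h5] at h3
    linarith [le_abs_self C0]
  have hm : ∀ S : Finset Bnd, ∑ e ∈ S, Bm Y V q n0 r c1 e ^ 2 ≤
      kk Y V q ^ 2 * (2 * Real.pi * Real.log r + |C0|) := by
    intro S
    calc _ ≤ ∑ e ∈ S, kk Y V q ^ 2 * g1 n0 r e ^ 2 :=
          Finset.sum_le_sum fun e _ => Bm_sq hn1 hnr h2 e
      _ = kk Y V q ^ 2 * ∑ e ∈ S, g1 n0 r e ^ 2 := by rw [Finset.mul_sum]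
      _ ≤ _ := mul_le_mul_of_nonneg_left (hg S) k2
  have hb : ∀ S : Finset Bnd, ∑ e ∈ S, Bb r κ x y s e ^ 2 ≤ (κ * s ^ 8) ^ 2 := fun S =>
    H565.sum_Bb_sq hκ.le hs hr1 hsx' (by linarith) S
  constructor
  · intro S
    have h3 : ∑ e ∈ S, Be Y V q n0 r κ x y s c1 e ^ 2 ≤
        4 * (∑ e ∈ S, Bm Y V q n0 r c1 e ^ 2 + ∑ e ∈ S.image (mb r), Bm Y V q n0 r c1 e ^ 2 +
          ∑ e ∈ S, Bb r κ x y s e ^ 2 + ∑ e ∈ S.image (mb r), Bb r κ x y s e ^ 2) := by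
      rw [← sum_mB, ← sum_mB, ← Finset.sum_add_distrib, ← Finset.sum_add_distrib,
        ← Finset.sum_add_distrib, Finset.mul_sum]
      exact Finset.sum_le_sum fun e _ => Be_sq _ _ _ _ _ _ _ _ _ _ _
    have h4 := hm S
    have h5 := hm (S.image (mb r))
    have h6 := hb S
    have h7 := hb (S.image (mb r))
    nlinarith
  · intro S hS
    have hv : ∀ e ∈ S, Bb r κ x y s e = 0 ∧ H565.mB r (Bb r κ x y s) e = 0 := by
      intro e he
      obtain ⟨a1, a2, a3, a4⟩ := slit_bond hr1 (hS e he)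
      constructor
      · unfold Bb
        rw [if_neg]
        rw [a2]
        simp
      · unfold H565.mB mb Bb
        simp [a2]
    have h1 : ∀ e ∈ S, |Bm Y V q n0 r c1 e| ≤ kk Y V q * (1 / (e.1.1 : ℝ) ^ 2) := by
      intro e he
      obtain ⟨a1, a2, a3, a4⟩ := slit_bond hr1 (hS e he)
      exact (Bm_le hn1 hnr h2 e).trans (mul_le_mul_of_nonneg_left (g1_vert n0 r a1 a2 a3)
        (kk_nonneg _ _ _))
    have hI : ∀ e ∈ S.image (mb r), e.1.2 = -1 ∧ e.2 = true ∧ e.1.1 ≠ 0 := by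
      intro e he
      obtain ⟨e', he', rfl⟩ := Finset.mem_image.1 he
      obtain ⟨a1, a2, a3, a4⟩ := slit_bond hr1 (hS e' he')
      unfold mb
      rw [if_pos a2]
      exact ⟨a1, rfl, a4⟩
    have h1' : ∀ e ∈ S.image (mb r), |Bm Y V q n0 r c1 e| ≤
        kk Y V q * (1 / (e.1.1 : ℝ) ^ 2) := by
      intro e he
      obtain ⟨a1, a2, a3⟩ := hI e he
      exact (Bm_le hn1 hnr h2 e).trans (mul_le_mul_of_nonneg_left (g1_vert n0 r a1 a2 a3)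
        (kk_nonneg _ _ _))
    have s1 := sum_vert (S := S) (fun e he => ⟨(slit_bond hr1 (hS e he)).1,
      (slit_bond hr1 (hS e he)).2.1, (slit_bond hr1 (hS e he)).2.2.1⟩) (kk_nonneg Y V q) h1
    have s2 := sum_vert (S := S.image (mb r)) hI (kk_nonneg Y V q) h1'
    have h3 : ∑ e ∈ S, Be Y V q n0 r κ x y s c1 e ^ 2 ≤
        4 * (∑ e ∈ S, Bm Y V q n0 r c1 e ^ 2 + ∑ e ∈ S.image (mb r), Bm Y V q n0 r c1 e ^ 2) := by
      rw [← sum_mB, ← Finset.sum_add_distrib, Finset.mul_sum]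
      refine Finset.sum_le_sum fun e he => ?_
      have h4 := Be_sq Y V q n0 r κ x y s c1 e
      rw [(hv e he).1, (hv e he).2] at h4
      linarith
    have hx : 0 ≤ 8 * kk Y V q ^ 2 * |C0| + 8 * (κ * s ^ 8) ^ 2 := by positivity
    linarith

theorem stmtBeE : StmtBeE := by
  intro Y V κ x y s c1 q hY hV hP
  obtain ⟨CE, hCE, n1, h⟩ := stmtBeF Y V κ x y s c1 q hY hV hP
  obtain ⟨hq, hκ, hs, hsy, hsx, hqy, hc1, hc2⟩ := hP
  refine ⟨CE + 1, n1 + 1, by linarith, fun n0 hn0 => ?_⟩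
  obtain ⟨C, hC⟩ := h n0 (by omega)
  refine ⟨C, fun r hr S => ?_⟩
  have hnr : (n0 : ℝ) ≤ r := by
    have : (0 : ℝ) ≤ r := Nat.cast_nonneg r
    nlinarith
  have hnr' : n0 ≤ r := by exact_mod_cast hnr
  have hlog : 0 ≤ Real.log r := Real.log_nonneg (by exact_mod_cast (by omega : 1 ≤ r))
  linarith [(hC r (by omega) hr).1 S]

end Vale.Agent.P159.T1.S.H546
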