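import Vale.Agent.P159.T1.S.H546.KeyE
import Vale.Agent.P159.T1.S.H226.FxDefs
import Vale.Agent.P159.T1.S.H777.Harm

/-!
P159, sharp stage, row S.KEY (helper546).
-/

set_option autoImplicit false
set_option linter.all false

open Filter Topology

namespace Vale.Agent.P159.T1.S.H546

open Vale.Agent.P159 Vale.Agent.P159.T1.D Vale.Agent.P159.T1.S
open Vale.Agent.P159.T1.H775 (lap stp)

/-- the truncated field -/
noncomputable def Bt (Y V : ℝ) (q n0 r : ℕ) (κ x y s c1 : ℝ) (v : Z2 → ℝ) : Bnd → ℝ :=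
  ct r (fun e => Be Y V q n0 r κ x y s c1 e - dr v e / Y)

lemma mem_off {R : Finset Z2} {r : ℕ} (h : ∀ f ∈ R, f ∉ slit r) {e : Bnd} (he : e ∈ bd R) :
    lf e ∉ slit r ∨ rt e ∉ slit r := by
  rw [H565.mem_bd] at he
  rcases he with h1 | h1
  · exact Or.inl (h _ h1)
  · exact Or.inr (h _ h1)

lemma Bt_bd {Y V : ℝ} {q n0 r A : ℕ} {κ x y s c1 : ℝ} {v : Z2 → ℝ} {N : Finset Z2} :
    ∀ e ∈ bd (SB A r \ N), Bt Y V q n0 r κ x y s c1 v e = B0 Y V q n0 r κ x y s c1 v e :=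
  fun e he => ct_bd _ he

lemma Bt_off {Y V : ℝ} {q n0 r : ℕ} {κ x y s c1 : ℝ} {v : Z2 → ℝ} {e : Bnd}
    (h : lf e ∉ slit r ∨ rt e ∉ slit r) :
    Bt Y V q n0 r κ x y s c1 v e = B0 Y V q n0 r κ x y s c1 v e := by
  unfold Bt ct
  rw [if_pos h]
  rfl

/-- one explored set -/
theorem key_one {b V ε1 CU η κ x y s c1 K : ℝ} {q l n0 A r : ℕ} (hb0 : 0 < b)
    (hY : 0 < helicity b) (hε1 : 0 ≤ ε1) (hCU : 0 ≤ CU) (hP : Par q κ x y s c1)
    (hc : c1 ≤ 1 / 16)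
    (hU1 : ∀ (U : Finset Z2) (S : Finset Bnd) (m : Bnd → ℤ) (B : Bnd → ℝ),
      (∀ e, e ∉ S → B e = 0) → (∀ e, |B e| ≤ η) →
      ZB b U m B ≤ Real.exp ((helicity b + ε1) / 2 * ∑ e ∈ S, B e ^ 2 + CU * osc l S B) * Z b U)
    (hrA : r ≤ A) (hr16 : 16 ≤ r) (hn1 : 1 ≤ n0) (hnr : (n0 : ℝ) ≤ c1 * r) {N : Finset Z2}
    (hN : Expl (SB A r) (Tz q r c1 (SB A r)) N) {t v : Z2 → ℝ} (ht : Tent K c1 n0 r t)
    (hv : Harm (SB A r \ N) t v)
    (b1 : IsDiv (SB A r) (Be (helicity b) V q n0 r κ x y s c1)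
      (rp (helicity b) V q n0 r κ x y s c1))
    (b2 : IsDiv (SB A r) (Bz (helicity b) q n0 r c1) (rz (helicity b) q n0 r c1))
    (hsmall : ∀ e, |Bt (helicity b) V q n0 r κ x y s c1 v e + Bz (helicity b) q n0 r c1 e| ≤ η)
    {X1 X2 X3 X4 X5 : ℝ}
    (x1 : H226.Flow (SB A r \ N) (SB A r) (Bt (helicity b) V q n0 r κ x y s c1 v) +
      helicity b * ∑ e ∈ bd (SB A r \ N), Bt (helicity b) V q n0 r κ x y s c1 v e *
        Bz (helicity b) q n0 r c1 e ≤ X1)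
    (x2 : ∀ S : Finset Bnd, OffSl r S →
      helicity b * ∑ e ∈ S, B0 (helicity b) V q n0 r κ x y s c1 v e ^ 2 - X2 ≤
        Vr b (SB A r \ nbF (SB A r) N) (B0 (helicity b) V q n0 r κ x y s c1 v))
    (x3 : ∀ S : Finset Bnd, osc l S (fun e => Bt (helicity b) V q n0 r κ x y s c1 v e +
      Bz (helicity b) q n0 r c1 e) ≤ X3)
    (x4 : ∀ S : Finset Bnd, ∑ e ∈ S, (Bt (helicity b) V q n0 r κ x y s c1 v e +
      Bz (helicity b) q n0 r c1 e) ^ 2 ≤ X4)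
    (x5 : ∀ S : Finset Bnd, helicity b / 2 * ∑ e ∈ S, Bz (helicity b) q n0 r c1 e ^ 2 ≤ X5) :
    KeyD b (SB A r) N (D.rho (helicity b) V q n0 r κ x y s) (rp (helicity b) V q n0 r κ x y s c1)
      (Real.exp (X5 + (X1 + X2 / 2 + CU * X3 + ε1 / 2 * X4))) := by
  classical
  obtain ⟨hq, hκ, hs, hsy, hsx, hqy, hc1, hc2⟩ := id hP
  have hsx' : s < x := by nlinarith
  have hr0 : (0 : ℝ) < r := by exact_mod_cast (by omega : 0 < r)
  have hm : 1 ≤ c1 * r := le_trans (by exact_mod_cast hn1) hnr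
  have hslit : ∀ f ∈ SB A r \ N, f ∉ slit r := fun f hf h =>
    slit_SB h (Finset.mem_sdiff.1 hf).1
  obtain ⟨hv1, hv2⟩ := hv
  have hbS : bd (SB A r \ N) ⊆ (bd (SB A r \ N) ∪ H565.Sbig r).filter
      (fun e => lf e ∉ slit r ∨ rt e ∉ slit r) := fun e he =>
    Finset.mem_filter.2 ⟨Finset.mem_union_left _ he, mem_off hslit he⟩
  have hS0' : OffSl r ((bd (SB A r \ N) ∪ H565.Sbig r).filter
      (fun e => lf e ∉ slit r ∨ rt e ∉ slit r)) := fun e he => (Finset.mem_filter.1 he).2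
  have hzs : ∀ e, e ∉ bd (SB A r \ N) → Bz (helicity b) q n0 r c1 e = 0 := fun e he =>
    Bz_bd hq hm hc1.le hc hr16 hrA hN he
  have hsupp : ∀ e, e ∉ (bd (SB A r \ N) ∪ H565.Sbig r).filter
      (fun e => lf e ∉ slit r ∨ rt e ∉ slit r) →
      Bt (helicity b) V q n0 r κ x y s c1 v e + Bz (helicity b) q n0 r c1 e = 0 := by
    intro e he
    have h1 : e ∉ bd (SB A r \ N) := fun h => he (hbS h)
    rw [hzs e h1, add_zero]
    unfold Bt ct
    split_ifs with h2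
    · have h3 : e ∉ H565.Sbig r := fun h =>
        he (Finset.mem_filter.2 ⟨Finset.mem_union_right _ h, h2⟩)
      show Be (helicity b) V q n0 r κ x y s c1 e - dr v e / helicity b = 0
      rw [Be_supp hn1 hnr (by nlinarith) (by omega) hs hsx' (by linarith) h3,
        dr_supp hc1.le hc (by omega) ht hv1 h1 h3]
      simp
    · rfl
  have hd0 : IsDiv (SB A r \ N) (Bt (helicity b) V q n0 r κ x y s c1 v)
      (rp (helicity b) V q n0 r κ x y s c1) :=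
    isDiv_congr Bt_bd (isDiv_B0 Finset.sdiff_subset b1 hv2)
  have hdV : IsDiv (SB A r \ N) (fun e => Bt (helicity b) V q n0 r κ x y s c1 v e +
      Bz (helicity b) q n0 r c1 e) (D.rho (helicity b) V q n0 r κ x y s) :=
    isDiv_sum hd0 fun f hf => b2 f (Finset.mem_sdiff.1 hf).1
  refine key_asm (b := b) (ε := ε1) (C := CU) (η := η) (l := l) hb0 hY.le hε1 hCU
    hU1 hN.1 hsupp hsmall hdV hd0 (fun e _ he => Bz_sec hq hm hN he) hzs hbS x1 ?_ (x3 _) (x4 _)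
    (x5 _)
  have h2 : Vr b (SB A r \ nbF (SB A r) N) (Bt (helicity b) V q n0 r κ x y s c1 v) =
      Vr b (SB A r \ nbF (SB A r) N) (B0 (helicity b) V q n0 r κ x y s c1 v) :=
    Vr_congr fun e he => Bt_bd e (bd_mono (nb_sub _ N hN.1) he)
  rw [h2, Finset.sum_congr rfl fun e he => by rw [Bt_off (hS0' e he)]]
  exact x2 _ hS0'

/-- the constants: everything is bounded by `ε / 2 * L + C` -/
lemma numbers {ε ε1 Y CE CT CU M εT εO C1 C2 CO CB CV CS L a : ℝ} (hY : 0 < Y) (hε : 0 < ε)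
    (ha : 0 < a) (hCE : 0 < CE) (hCU : 0 < CU) (hL : 0 ≤ L) (hεT2 : εT ≤ 1)
    (hCT : CT = 2 * (2 * (CE + 2 * (CE + 1)) + 2 / a / Y ^ 2)) (hε1 : ε1 = ε / (4 * (CT + 1)))
    (hεT3 : CU * M * εT ≤ ε / 64) (hεO1 : CU * (1 / Y ^ 2 * εO) ≤ ε / 64) :
    (L / (Y * a) + CB / (2 * Y)) + ((ε / 8 * L + CS) + (ε / 4 * L + CV) / 2 +
      CU * (4 * (M * (εT * L + |C2|) + 1 / Y ^ 2 * (εO * L + CO) + CB)) +
      ε1 / 2 * (2 * (2 * ((CE * L + |C1|) + 2 * ((CE * L + |C1|) + (εT * L + |C2|))) +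
        (2 * L / a + CB) / Y ^ 2))) ≤
      L / (Y * a) + ε * L + (CS + CV / 2 + CU * (4 * (M * |C2| + 1 / Y ^ 2 * CO + CB)) +
        ε1 / 2 * (2 * (2 * (|C1| + 2 * (|C1| + |C2|)) + CB / Y ^ 2)) + CB / (2 * Y)) := by
  have hCT0 : 0 < CT := by rw [hCT]; positivity
  have hε10 : 0 < ε1 := by rw [hε1]; positivity
  have y3 : CU * (4 * (M * (εT * L + |C2|) + 1 / Y ^ 2 * (εO * L + CO) + CB)) ≤
      ε / 8 * L + CU * (4 * (M * |C2| + 1 / Y ^ 2 * CO + CB)) := by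
    have e1 : CU * (4 * (M * (εT * L + |C2|) + 1 / Y ^ 2 * (εO * L + CO) + CB)) =
        4 * (CU * M * εT) * L + 4 * (CU * (1 / Y ^ 2 * εO)) * L +
          CU * (4 * (M * |C2| + 1 / Y ^ 2 * CO + CB)) := by
      ring
    rw [e1]
    have h1 := mul_le_mul_of_nonneg_right hεT3 hL
    have h2 := mul_le_mul_of_nonneg_right hεO1 hL
    linarith
  have y4 : ε1 / 2 * (2 * (2 * ((CE * L + |C1|) + 2 * ((CE * L + |C1|) + (εT * L + |C2|))) +
        (2 * L / a + CB) / Y ^ 2)) ≤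
      ε / 8 * L + ε1 / 2 * (2 * (2 * (|C1| + 2 * (|C1| + |C2|)) + CB / Y ^ 2)) := by
    have h1 : εT * L ≤ 1 * L := mul_le_mul_of_nonneg_right hεT2 hL
    have h2 : 2 * (2 * ((CE * L + |C1|) + 2 * ((CE * L + |C1|) + (εT * L + |C2|))) +
        (2 * L / a + CB) / Y ^ 2) ≤
        CT * L + 2 * (2 * (|C1| + 2 * (|C1| + |C2|)) + CB / Y ^ 2) := by
      have e1 : CT * L + 2 * (2 * (|C1| + 2 * (|C1| + |C2|)) + CB / Y ^ 2) -
          2 * (2 * ((CE * L + |C1|) + 2 * ((CE * L + |C1|) + (εT * L + |C2|))) +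
        (2 * L / a + CB) / Y ^ 2) = 8 * (1 * L - εT * L) := by
        rw [hCT]
        field_simp
        ring
      linarith
    have h3 := mul_le_mul_of_nonneg_left h2 (by positivity : (0 : ℝ) ≤ ε1 / 2)
    have h4 : ε1 / 2 * CT ≤ ε / 8 := by
      rw [hε1]
      have : ε / (4 * (CT + 1)) / 2 * CT = ε / 8 * (CT / (CT + 1)) := by
        field_simp
        ring
      rw [this]
      have h5 : CT / (CT + 1) ≤ 1 := by
        rw [div_le_one (by linarith)]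
        linarith
      nlinarith
    have h6 := mul_le_mul_of_nonneg_right h4 hL
    linarith
  have y5 : 0 ≤ ε * L := by positivity
  linarith

/-- bounds for the energies in the flux -/
lemma numD {Y CE εT C1 C2 L : ℝ} (hCE : 0 < CE) (hL : 0 ≤ L) (hεT2 : εT ≤ 1) :
    2 * ((CE * L + |C1|) + 2 * ((CE * L + |C1|) + (εT * L + |C2|))) ≤
      (6 + 2 * Y ^ 2) * (CE + 1) * L + (6 + 2 * Y ^ 2) * (|C1| + |C2|) ∧
    2 * Y ^ 2 * ((CE * L + |C1|) + (εT * L + |C2|)) ≤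
      (6 + 2 * Y ^ 2) * (CE + 1) * L + (6 + 2 * Y ^ 2) * (|C1| + |C2|) := by
  have h1 : εT * L ≤ 1 * L := mul_le_mul_of_nonneg_right hεT2 hL
  have h2 : 0 ≤ CE * L := by positivity
  have h3 : 0 ≤ Y ^ 2 * (CE * L) := by positivity
  have h4 : 0 ≤ Y ^ 2 * L := by positivity
  have h5 : 0 ≤ Y ^ 2 * |C1| := by positivity
  have h6 : 0 ≤ Y ^ 2 * |C2| := by positivity
  have h7 : Y ^ 2 * (εT * L) ≤ Y ^ 2 * (1 * L) := mul_le_mul_of_nonneg_left h1 (by positivity)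
  constructor <;> nlinarith [abs_nonneg C1, abs_nonneg C2]

/-- **row S.KEY** -/
theorem stmtKey (hU : StmtU) (hT : StmtT) (hBe : StmtBe) (hBeE : StmtBeE) (hOsc : StmtOsc)
    (hUnb : StmtUnb) (hVB : StmtVB) (hFx : StmtFx) : StmtKey := by
  intro b V ε κ x y s c1 q hb hV hε hP hc
  have hb0 : 0 < b := lt_of_lt_of_le H170.bCrit_pos hb
  have hY : 0 < helicity b := H565.hel_pos' hb
  obtain ⟨hq, hκ, hs, hsy, hsx, hqy, hc1, hc2⟩ := id hP
  have hsx' : s < x := by nlinarith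
  have hang : 0 < ang q := H565.ang_pos hq
  -- energies
  obtain ⟨CE, nE, hCE, hE⟩ := hBeE (helicity b) V κ x y s c1 q hY hV hP
  obtain ⟨εV, hεV, hVB1⟩ := hVB b V (ε / 4) κ x y s c1 q hb hV (by linarith) hP hc
  obtain ⟨CT, hCT⟩ : ∃ CT : ℝ, CT = 2 * (2 * (CE + 2 * (CE + 1)) + 2 / ang q / helicity b ^ 2) :=
    ⟨_, rfl⟩
  have hCT0 : 0 < CT := by rw [hCT]; positivity
  obtain ⟨ε1, hε1⟩ : ∃ ε1 : ℝ, ε1 = ε / (4 * (CT + 1)) := ⟨_, rfl⟩
  have hε10 : 0 < ε1 := by rw [hε1]; positivity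
  obtain ⟨l, η, CU, hη, hCU, hU1⟩ := hU b ε1 hb0 hε10
  obtain ⟨M, hM⟩ : ∃ M : ℝ, M = ((2 * l + 1) ^ 2 : ℕ) * 4 := ⟨_, rfl⟩
  have hM0 : 0 < M := by
    rw [hM]
    positivity
  -- the precision of the tent
  obtain ⟨εT, hεT⟩ : ∃ εT : ℝ, εT = min (min εV 1) (ε / (64 * (CU * M))) := ⟨_, rfl⟩
  have hεT0 : 0 < εT := by
    rw [hεT]
    exact lt_min (lt_min hεV one_pos) (by positivity)
  have hεT1 : εT ≤ εV := by rw [hεT]; exact (min_le_left _ _).trans (min_le_left _ _)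
  have hεT2 : εT ≤ 1 := by rw [hεT]; exact (min_le_left _ _).trans (min_le_right _ _)
  have hεT3 : CU * M * εT ≤ ε / 64 := by
    have h : εT ≤ ε / (64 * (CU * M)) := by rw [hεT]; exact min_le_right _ _
    rw [le_div_iff₀ (by positivity)] at h
    linarith
  obtain ⟨K, nT, hK, hT1⟩ := hT (helicity b) V εT κ x y s c1 q hY hV hεT0 hP
  obtain ⟨εO, hεO⟩ : ∃ εO : ℝ, εO = min (ε * helicity b ^ 2 / (64 * CU)) (helicity b * η / 8) :=
    ⟨_, rfl⟩
  have hεO0 : 0 < εO := by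
    rw [hεO]
    exact lt_min (by positivity) (by positivity)
  have hεO1 : CU * (1 / helicity b ^ 2 * εO) ≤ ε / 64 := by
    have h : εO ≤ ε * helicity b ^ 2 / (64 * CU) := by rw [hεO]; exact min_le_left _ _
    rw [le_div_iff₀ (by positivity)] at h
    have e1 : CU * (1 / helicity b ^ 2 * εO) = (εO * (64 * CU)) / (64 * helicity b ^ 2) := by
      field_simp
    rw [e1, div_le_iff₀ (by positivity)]
    linarith
  have hεO2 : εO ≤ helicity b * η / 8 := by rw [hεO]; exact min_le_right _ _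
  obtain ⟨nO, hO1⟩ := hOsc K εO c1 l hK hεO0 hc1 (by linarith)
  obtain ⟨nB, hB1⟩ := hBe (helicity b) V (η / 8) κ x y s c1 q l hY hV (by linarith) hP
  obtain ⟨nV, hVB2⟩ := hVB1 K hK
  refine ⟨nE + nT + nO + nB + nV + ⌈16 * K / (helicity b * η)⌉₊ + 1, fun n0 hn0 => ?_⟩
  have hn1 : 1 ≤ n0 := by omega
  have hnK : 16 * K / (helicity b * η) ≤ n0 :=
    (Nat.le_ceil _).trans (by exact_mod_cast (by omega))
  have hn0' : (0 : ℝ) < n0 := by exact_mod_cast (by omega : 0 < n0)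
  obtain ⟨C1, hE2⟩ := hE n0 (by omega)
  obtain ⟨C2, hT2⟩ := hT1 n0 (by omega)
  obtain ⟨CO, hO2⟩ := hO1 n0 (by omega)
  obtain ⟨CB, hB2⟩ := hB1 n0 (by omega)
  obtain ⟨CV, hVB3⟩ := hVB2 n0 (by omega) C2
  obtain ⟨CF, hCF, hF⟩ := hFx (helicity b) V K κ x y s c1 q hY hV hP hc n0 hn1
  obtain ⟨CS, hS⟩ := sqrt_lin (P := (6 + 2 * helicity b ^ 2) * (CE + 1))
    (Q := (6 + 2 * helicity b ^ 2) * (|C1| + |C2|)) (ε := ε / 8) (CF := CF) (by positivity)
    (by positivity) (by linarith) hCF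
  -- the constant
  refine ⟨CS + CV / 2 + CU * (4 * (M * |C2| + 1 / helicity b ^ 2 * CO + CB)) +
    ε1 / 2 * (2 * (2 * (|C1| + 2 * (|C1| + |C2|)) + CB / helicity b ^ 2)) +
    CB / (2 * helicity b), ⌈(n0 : ℝ) / c1⌉₊ + nB + nV + 16, ?_⟩
  intro A r hA hr N hN
  have hr0 : (0 : ℝ) < r := by exact_mod_cast (by omega : 0 < r)
  have hnr : (n0 : ℝ) ≤ c1 * r := by
    have h1 : (n0 : ℝ) / c1 ≤ r := (Nat.le_ceil _).trans (by exact_mod_cast (by omega))
    rw [div_le_iff₀ hc1] at h1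
    linarith
  have hrA : r ≤ A * r := Nat.le_mul_of_pos_left r hA
  have hL : 0 ≤ Real.log r := Real.log_nonneg (by exact_mod_cast (by omega : 1 ≤ r))
  -- the tent and the harmonic function
  obtain ⟨t, ht, hDt⟩ := hT2 r hnr
  obtain ⟨v, hv1, hv2⟩ := H777.exists_dirichlet (SB (A * r) r \ N) t
  have hv : Harm (SB (A * r) r \ N) t v := ⟨hv1, hv2⟩
  have hUb : Unb (SB (A * r) r \ N) :=
    hUnb (A * r) r (Tz q r c1 (SB (A * r) r)) N (by omega) (by omega) hN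
  have hslit : ∀ f ∈ SB (A * r) r \ N, f ∉ slit r := fun f hf h =>
    slit_SB h (Finset.mem_sdiff.1 hf).1
  obtain ⟨o1, o2, -, -⟩ := hO2 r (SB (A * r) r \ N) t v (by omega) ht hUb hv hslit
  obtain ⟨b1, b2, b3, b4, b5, b6, b7, b8⟩ := hB2 (A * r) r (by omega) hnr
  -- energies
  have g1 : ∀ S : Finset Bnd, ∑ e ∈ S, Be (helicity b) V q n0 r κ x y s c1 e ^ 2 ≤
      CE * Real.log r + |C1| := fun S =>
    (hE2 r hnr S).trans (by linarith [le_abs_self C1])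
  have g2 : ∀ S : Finset Bnd, OffSl r S →
      ∑ e ∈ S, (Be (helicity b) V q n0 r κ x y s c1 e - dr t e / helicity b) ^ 2 ≤
        εT * Real.log r + |C2| := fun S hS' =>
    (hDt S hS').trans (by linarith [le_abs_self C2])
  have g3 := v_en hY ht hv g1 g2
  have g4 : ∀ S : Finset Bnd, ∑ e ∈ S, Bt (helicity b) V q n0 r κ x y s c1 v e ^ 2 ≤ _ :=
    b0_en (r := r) hY g1 g3
  have g5 : ∀ S : Finset Bnd, ∑ e ∈ S, Bz (helicity b) q n0 r c1 e ^ 2 ≤
      (2 * Real.log r / ang q + CB) / helicity b ^ 2 := by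
    intro S
    rw [le_div_iff₀ (by positivity), mul_comm, Finset.mul_sum]
    refine le_trans (le_of_eq ?_) (b8 S)
    exact Finset.sum_congr rfl fun e _ => by ring
  have g6 := tot_en g4 g5
  obtain ⟨d1, d2⟩ := numD (Y := helicity b) (C1 := C1) (C2 := C2) hCE hL hεT2
  have hsmall : ∀ e, |Bt (helicity b) V q n0 r κ x y s c1 v e +
      Bz (helicity b) q n0 r c1 e| ≤ η := by
    intro e
    have h1 := field_sup (v := v) hY (r := r) (Be (helicity b) V q n0 r κ x y s c1)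
      (Bz (helicity b) q n0 r c1) b4 b5 (tent_sup hK hn1 ht) o1 e
    refine h1.trans ?_
    have h2 : 2 * K / n0 ≤ helicity b * η / 8 := by
      rw [div_le_iff₀ (by positivity)] at hnK
      rw [div_le_iff₀ hn0']
      linarith
    have h3 : (2 * K / n0 + εO) / helicity b ≤ η / 4 := by
      rw [div_le_iff₀ hY]
      linarith
    linarith
  have x1 := hF A r hA hnr b1 b3 N hN t v ht hv (Bt (helicity b) V q n0 r κ x y s c1 v)
    (Bz (helicity b) q n0 r c1) Bt_bd (fun _ _ => rfl)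
    ((6 + 2 * helicity b ^ 2) * (CE + 1) * Real.log r +
      (6 + 2 * helicity b ^ 2) * (|C1| + |C2|)) (by positivity) ((g4 _).trans d1)
    ((g3 _).trans d2)
  have x5 : ∀ S : Finset Bnd, helicity b / 2 * ∑ e ∈ S, Bz (helicity b) q n0 r c1 e ^ 2 ≤
      Real.log r / (helicity b * ang q) + CB / (2 * helicity b) := by
    intro S
    have h1 := mul_le_mul_of_nonneg_left (g5 S) (by positivity : (0 : ℝ) ≤ helicity b / 2)
    refine h1.trans (le_of_eq ?_)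
    field_simp
  have x3 : ∀ S : Finset Bnd, osc l S (fun e => Bt (helicity b) V q n0 r κ x y s c1 v e +
      Bz (helicity b) q n0 r c1 e) ≤ 4 * (M * (εT * Real.log r + |C2|) +
        1 / helicity b ^ 2 * (εO * Real.log r + CO) + CB) := by
    intro S
    have h1 := field_osc hY hv (Be (helicity b) V q n0 r κ x y s c1)
      (Bz (helicity b) q n0 r c1) l S g2 (o2 S) (b7 S)
    refine h1.trans (le_of_eq ?_)
    rw [hM]
    ring
  refine KeyD.mono hb0 (key_one hb0 hY hε10.le hCU.le hP hc hU1 hrA (by omega) hn1 hnr hN ht hv b1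
    b2 hsmall (x1.trans (hS _ hL)) (fun S hS' => ?_) x3 g6 x5) (Real.exp_le_exp.2
      (numbers hY hε hang hCE hCU hL hεT2 hCT hε1 hεT3 hεO1))
  have h1 := hVB3 (A * r) r N t v hrA (by omega) hnr ht
    (fun S hS' => (hDt S hS').trans (by nlinarith)) hN hv S hS'
  linarith

end Vale.Agent.P159.T1.S.H546
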