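import Vale.Agent.P159.T1.S.Stmts
import Vale.Agent.P159.T1.S.H226.Flux

/-!
P159, sharp stage: the pieces of row S.KEY.
-/

open Filter Topology

namespace Vale.Agent.P159.T1.S

open Vale.Agent.P159 Vale.Agent.P159.H353 Vale.Agent.P159.T1.D
open Vale.Agent.P159.T1.H565 (Kf mB Bb)

/-- bonds with at least one side off the slits -/
def OffSl (r : ℕ) (S : Finset Bnd) : Prop := ∀ e ∈ S, lf e ∉ slit r ∨ rt e ∉ slit r

/-- the field of the charges `ρ'` in the domain with the harmonic function `v` -/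
noncomputable def B0 (Y V : ℝ) (q n0 r : ℕ) (κ x y s c1 : ℝ) (v : Z2 → ℝ) (e : Bnd) : ℝ :=
  Be Y V q n0 r κ x y s c1 e - dr v e / Y

/-- the energy of the explicit field; the constant in front of `log r` does not depend on `n0` -/
def StmtBeF : Prop :=
  ∀ (Y V κ x y s c1 : ℝ) (q : ℕ), 0 < Y → 1 < V → Par q κ x y s c1 →
    ∃ CE : ℝ, 0 ≤ CE ∧ ∃ n1 : ℕ, ∀ n0 ≥ n1, ∃ C : ℝ, ∀ r : ℕ, n1 ≤ r → (n0 : ℝ) ≤ c1 * r →
      (∀ S : Finset Bnd, ∑ e ∈ S, Be Y V q n0 r κ x y s c1 e ^ 2 ≤ CE * Real.log r + C) ∧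
      ∀ S : Finset Bnd, (∀ e ∈ S, lf e ∈ slit r ∧ rt e ∈ slit r) →
        ∑ e ∈ S, Be Y V q n0 r κ x y s c1 e ^ 2 ≤ C

/-- S.VB0: the variance of `B0` in the domain without the explored set and its neighbours -/
def StmtVB : Prop :=
  ∀ (b V ε κ x y s c1 : ℝ) (q : ℕ), bCrit ≤ b → 1 < V → 0 < ε → Par q κ x y s c1 → c1 ≤ 1 / 16 →
    ∃ ε' : ℝ, 0 < ε' ∧ ∀ K : ℝ, 0 < K → ∃ n1 : ℕ, ∀ n0 ≥ n1, ∀ C' : ℝ, ∃ C : ℝ,
      ∀ (R r : ℕ) (N : Finset Z2) (t v : Z2 → ℝ), r ≤ R → n1 ≤ r → (n0 : ℝ) ≤ c1 * r →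
      Tent K c1 n0 r t →
      (∀ S : Finset Bnd, OffSl r S →
        ∑ e ∈ S, (Be (helicity b) V q n0 r κ x y s c1 e - dr t e / helicity b) ^ 2 ≤
          ε' * Real.log r + C') →
      Expl (SB R r) (Tz q r c1 (SB R r)) N → Harm (SB R r \ N) t v →
      ∀ S : Finset Bnd, OffSl r S →
        helicity b * ∑ e ∈ S, B0 (helicity b) V q n0 r κ x y s c1 v e ^ 2 - ε * Real.log r - C ≤
          Vr b (SB R r \ nbF (SB R r) N) (B0 (helicity b) V q n0 r κ x y s c1 v)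

end Vale.Agent.P159.T1.S
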