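import Vale.Agent.P159.T1.S.H546.Key
import Vale.Agent.P159.T1.S.H731.Vu
import Vale.Agent.P159.T1.S.H731.VB0
import Vale.Agent.P159.T1.S.H831.Tn1
import Vale.Agent.P159.T1.S.H112.FreeSq
import Vale.Agent.P159.T1.S.H598.Key
import Vale.Agent.P159.T1.S.H634.Unb
import Vale.Agent.P159.T1.S.H634.ClGlob
import Vale.Agent.P159.T1.S.H376.OscFin
import Vale.Agent.P159.T1.S.H376.PhiB
import Vale.Agent.P159.T1.S.H407.Be
import Vale.Agent.P159.T1.S.H130.EnT
import Vale.Agent.P159.T1.S.H226.FxMain

/-!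
P159, sharp stage: the chain (helper546).
-/

set_option autoImplicit false
set_option linter.all false

open Filter Topology

namespace Vale.Agent.P159.T1.S.H546

open Vale.Agent.P159 Vale.Agent.P159.T1.D Vale.Agent.P159.T1.S

/-- row S.VU -/
theorem vu : StmtVu := H731.stmtVu (H376.stmtPhi H634.stmtCL) H112.stmtSV H130.stmtEn0

/-- row S.KEY -/
theorem key_fin : StmtKey :=
  stmtKey D.stmtU H831.stmtT H407.stmtBe stmtBeE (H376.stmtOsc H634.stmtCL) H634.stmtUnb
    (H731.stmtVB vu stmtBeE H634.stmtUnb) H226.stmtFx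

/-- **the sharp lower bound on the axis** -/
theorem stmtSharp : StmtSharp := H598.sharp_key key_fin

/-- **the exponent `1 / (2 π Y)` on the axis** -/
theorem axisSharp {b : ℝ} (hb : bCrit ≤ b) : F.AxisB b (1 / (2 * Real.pi * helicity b)) :=
  H598.axisSharp_key key_fin hb

end Vale.Agent.P159.T1.S.H546
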