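import Vale.Agent.P159.T1.D.H469.UV
import Vale.Agent.P159.T1.H910.DKit2
import Vale.Agent.P159.T1.D.Stmts
import Vale.Agent.P159.T1.H934.Amp

/-!
P159, sharp stage, row S.KEY (helper546): heights on `R` with couplings `J` in a sector `m`.

* `ZJ_mono`: the tilted sums increase with the couplings in every sector (Ginibre);
* `ZsJ_eq`: charges and fields;
* `key_core`: the comparison of the sector `m` with the sector `0`.
-/

set_option autoImplicit false
set_option linter.all false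

open MeasureTheory Filter Topology

namespace Vale.Agent.P159.T1.S.H546

open Vale.Agent.P159 Vale.Agent.P159.H353 Vale.Agent.P159.T1.H934 Vale.Agent.P159.T1.H910
  Vale.Agent.P159.T1.D

/-- heights with couplings `J` in the sector `m` with the field `B` -/
noncomputable def ZJ (J : Bnd → ℝ) (U : Finset Z2) (m : Bnd → ℤ) (B : Bnd → ℝ) : ℝ :=
  ∑' h : Ht U, (∏ e ∈ bd U, wI (J e) (dh h.1 e + m e)) * Real.exp (pr U B m h.1)

/-- the same with charges -/
noncomputable def ZsJ (J : Bnd → ℝ) (U : Finset Z2) (m : Bnd → ℤ) (ρ : Z2 → ℝ) : ℝ :=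
  ∑' h : Ht U, (∏ e ∈ bd U, wI (J e) (dh h.1 e + m e)) * Real.exp (ch U ρ h.1)

/-- the heights as a group -/
def HG (U : Finset Z2) : AddSubgroup (Z2 → ℤ) where
  carrier := {h | ∀ f, f ∉ U → h f = 0}
  add_mem' := fun {a b} ha hb f hf => by simp [ha f hf, hb f hf]
  zero_mem' := fun f _ => rfl
  neg_mem' := fun {a} ha f hf => by simp [ha f hf]

/-- gradient with sector variable -/
def Dk (U : Finset Z2) (m : Bnd → ℤ) :
    (HG U × ℤ) →+ (({e : Bnd // e ∈ bd U} ⊕ Unit) → ℤ) where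
  toFun x := Sum.elim (fun e => dh x.1.1 e.1 + x.2 * m e.1) (fun _ => x.2)
  map_zero' := by
    funext e
    rcases e with e | e <;> simp [dh]
  map_add' := fun x y => by
    funext e
    rcases e with e | e
    · simp [dh]; ring
    · simp

lemma Dk_inj (U : Finset Z2) (m : Bnd → ℤ) : Function.Injective (Dk U m) := by
  rintro ⟨h, k⟩ ⟨h', k'⟩ H
  have h1 := congrFun H (Sum.inr ())
  have hk : k = k' := h1
  subst hk
  have h2 : (⟨h.1, h.2⟩ : Ht U) = ⟨h'.1, h'.2⟩ := by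
    refine D.H469.eq_of_dh fun e he => ?_
    have h3 := congrFun H (Sum.inl ⟨e, he⟩)
    have h4 : dh h.1 e + k * m e = dh h'.1 e + k * m e := h3
    show dh h.1 e = dh h'.1 e
    omega
  have h5 : h.1 = h'.1 := congrArg Subtype.val h2
  exact Prod.ext (Subtype.ext h5) rfl

/-- heights in the sector `k` -/
def ik (U : Finset Z2) (k : ℤ) (h : Ht U) : HG U × ℤ := (⟨h.1, h.2⟩, k)

lemma ik_inj (U : Finset Z2) (k : ℤ) : Function.Injective (ik U k) := by
  intro h h' H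
  have h1 := congrArg (fun x => x.1.1) H
  exact Subtype.ext h1

lemma tsum_sector (U : Finset Z2) (k : ℤ) (F : HG U × ℤ → ℝ) :
    ∑' x : HG U × ℤ, (if x.2 = k then F x else 0) = ∑' h : Ht U, F (ik U k h) := by
  rw [← (ik_inj U k).tsum_eq]
  · refine tsum_congr fun h => ?_
    exact if_pos rfl
  · intro x hx
    rw [Function.mem_support] at hx
    have h1 : x.2 = k := by
      by_contra h
      exact hx (if_neg h)
    refine ⟨⟨x.1.1, x.1.2⟩, ?_⟩
    exact Prod.ext (Subtype.ext rfl) h1.symm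

/-- couplings with the additional bond -/
def xJ (U : Finset Z2) (J : Bnd → ℝ) (c : ℝ) : ({e : Bnd // e ∈ bd U} ⊕ Unit) → ℝ :=
  Sum.elim (fun e => J e.1) (fun _ => c)

lemma W_ik (U : Finset Z2) (m : Bnd → ℤ) (J : Bnd → ℝ) (k : ℤ) (h : Ht U) :
    W (Dk U m) (xJ U J (5 / 4)) (ik U k h) =
      (∏ e ∈ bd U, wI (J e) (dh h.1 e + k * m e)) * wI (5 / 4) k := by
  unfold W
  rw [Fintype.prod_sum_type]
  congr 1
  · rw [← Finset.prod_coe_sort (bd U) (fun e => wI (J e) (dh h.1 e + k * m e))]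
    rfl
  · simp [Dk, ik, xJ]

lemma ln_ik (U : Finset Z2) (m : Bnd → ℤ) (B : Bnd → ℝ) (h : Ht U) :
    ln (Dk U m) (xJ U B 0) (ik U 1 h) = pr U B m h.1 := by
  unfold ln pr
  rw [Fintype.sum_sum_type, ← Finset.sum_coe_sort (bd U) (fun e => B e * ((dh h.1 e + m e : ℤ) : ℝ))]
  simp [Dk, ik, xJ]

/-- **the tilted sums increase with the couplings, in every sector** -/
theorem ZJ_mono {J J' : Bnd → ℝ} (hJ : ∀ e, 0 ≤ J e) (hJJ : ∀ e, J e ≤ J' e) (U : Finset Z2)
    (m : Bnd → ℤ) (B : Bnd → ℝ) :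
    ZJ J U m B * ZJ J' U 0 0 ≤ ZJ J' U m B * ZJ J U 0 0 := by
  have h1 := mono_sector (D := Dk U m) (Dk_inj U m)
    (J := xJ U J (5 / 4)) (K := xJ U (fun e => J' e - J e) 0)
    (by rintro (e | e); exacts [hJ e.1, by norm_num [xJ]])
    (by rintro (e | e); exacts [sub_nonneg.2 (hJJ e.1), le_rfl])
    (AddMonoidHom.snd (HG U) ℤ) 1 (xJ U B 0)
  have e0 : xJ U J (5 / 4) + xJ U (fun e => J' e - J e) 0 = xJ U J' (5 / 4) := by
    funext e
    rcases e with e | e <;> simp [xJ]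
  rw [e0] at h1
  have eN : ∀ J : Bnd → ℝ, (∑' h, W (Dk U m) (xJ U J (5 / 4)) h *
      (if (AddMonoidHom.snd (HG U) ℤ) h = 1 then Real.exp (ln (Dk U m) (xJ U B 0) h) else 0)) =
      ZJ J U m B * wI (5 / 4) 1 := by
    intro J
    have e1 : ∀ x : HG U × ℤ, W (Dk U m) (xJ U J (5 / 4)) x *
        (if (AddMonoidHom.snd (HG U) ℤ) x = 1 then Real.exp (ln (Dk U m) (xJ U B 0) x) else 0) =
        (if x.2 = 1 then W (Dk U m) (xJ U J (5 / 4)) x * Real.exp (ln (Dk U m) (xJ U B 0) x)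
          else 0) := by
      intro x
      by_cases hx : x.2 = 1
      · have hx' : (AddMonoidHom.snd (HG U) ℤ) x = 1 := hx
        rw [if_pos hx, if_pos hx']
      · have hx' : ¬ (AddMonoidHom.snd (HG U) ℤ) x = 1 := hx
        rw [if_neg hx, if_neg hx', mul_zero]
    rw [tsum_congr e1, tsum_sector U 1
      (fun x => W (Dk U m) (xJ U J (5 / 4)) x * Real.exp (ln (Dk U m) (xJ U B 0) x)), ZJ,
      ← tsum_mul_right]
    refine tsum_congr fun h => ?_
    rw [W_ik, ln_ik]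
    simp only [one_mul]
    ring
  have eD : ∀ J : Bnd → ℝ, (∑' h, W (Dk U m) (xJ U J (5 / 4)) h *
      (if (AddMonoidHom.snd (HG U) ℤ) h = 0 then (1 : ℝ) else 0)) = ZJ J U 0 0 * wI (5 / 4) 0 := by
    intro J
    have e1 : ∀ x : HG U × ℤ, W (Dk U m) (xJ U J (5 / 4)) x *
        (if (AddMonoidHom.snd (HG U) ℤ) x = 0 then (1 : ℝ) else 0) =
        (if x.2 = 0 then W (Dk U m) (xJ U J (5 / 4)) x else 0) := by
      intro x
      by_cases hx : x.2 = 0
      · have hx' : (AddMonoidHom.snd (HG U) ℤ) x = 0 := hx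
        rw [if_pos hx, if_pos hx', mul_one]
      · have hx' : ¬ (AddMonoidHom.snd (HG U) ℤ) x = 0 := hx
        rw [if_neg hx, if_neg hx', mul_zero]
    rw [tsum_congr e1, tsum_sector U 0 (fun x => W (Dk U m) (xJ U J (5 / 4)) x), ZJ, ← tsum_mul_right]
    refine tsum_congr fun h => ?_
    rw [W_ik]
    have e2 : pr U 0 0 h.1 = 0 := by simp [pr]
    rw [e2, Real.exp_zero, mul_one]
    simp
  rw [eN, eN, eD, eD] at h1
  have w0 : 0 < wI (5 / 4) 0 := wI_zero_pos (by norm_num)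
  have w1 : 0 < wI (5 / 4) 1 := by linarith [side_half]
  have h2 : (ZJ J U m B * ZJ J' U 0 0) * (wI (5 / 4) 1 * wI (5 / 4) 0) ≤
      (ZJ J' U m B * ZJ J U 0 0) * (wI (5 / 4) 1 * wI (5 / 4) 0) := by
    calc _ = ZJ J U m B * wI (5 / 4) 1 * (ZJ J' U 0 0 * wI (5 / 4) 0) := by ring
      _ ≤ _ := h1
      _ = _ := by ring
  exact le_of_mul_le_mul_right h2 (mul_pos w1 w0)

end Vale.Agent.P159.T1.S.H546
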