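import Vale.Agent.P159.T1.D.H469.UV
import Vale.Agent.P159.T1.H910.DKit2
import Vale.Agent.P159.T1.D.Stmts
import Vale.Agent.P159.T1.S.H226.Flux
import Vale.Agent.P159.T1.S.H802.Defs

/-!
P159, sharp stage, row S.KEY (helper546): comparison of the sector `1` on the explored set with the
sector `0`, from the upper bound `StmtU`.
-/

set_option autoImplicit false
set_option linter.all false

open MeasureTheory Filter Topology

namespace Vale.Agent.P159.T1.S.H546

open Vale.Agent.P159 Vale.Agent.P159.H353 Vale.Agent.P159.T1.H910 Vale.Agent.P159.T1.D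
open Vale.Agent.P159.T1.S.H226 (out jmp by_parts)

/-- the faces which are not explored and have no explored neighbour -/
lemma nb_sub (U N : Finset Z2) (hN : N ⊆ U) : U \ nbF U N ⊆ U \ N := by
  classical
  intro f hf
  rw [Finset.mem_sdiff] at hf ⊢
  refine ⟨hf.1, fun h => hf.2 ?_⟩
  unfold nbF
  rw [Finset.mem_filter]
  exact ⟨hf.1, Or.inl h⟩

/-- the inequality for one explored set -/
def KeyD (b : ℝ) (U N : Finset Z2) (ρV ρ' : Z2 → ℝ) (M : ℝ) : Prop :=
  Zn b U N 1 ρV * Z b (U \ nbF U N) ≤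
    M * (Real.exp (∑ f ∈ U \ N, ρ' f) * Zρ b (U \ nbF U N) ρ') * Z b (U \ N)

/-- the flux identity: all faces outside `U \ N` at height `1` -/
lemma flux_id {U N : Finset Z2} (hN : N ⊆ U) {B : Bnd → ℝ} {ρ : Z2 → ℝ}
    (hB : IsDiv (U \ N) B ρ) :
    -∑ e ∈ bd (U \ N), B e * (secN U N 1 e : ℝ) - ∑ f ∈ U \ N, ρ f =
      H226.Flow (U \ N) U B := by
  set R := U \ N with hR
  have h1 := by_parts R B (fun _ => (1 : ℝ))
  have h2 : ∑ e ∈ bd R, B e * dr (fun _ => (1 : ℝ)) e = 0 := by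
    refine Finset.sum_eq_zero fun e _ => ?_
    unfold dr
    rw [sub_self, mul_zero]
  have h3 : ∑ f ∈ R, D.dv B f * 1 = ∑ f ∈ R, ρ f :=
    Finset.sum_congr rfl fun f hf => by rw [mul_one]; exact hB f hf
  rw [h2, h3] at h1
  have side : ∀ (e : Bnd) (f : Z2), (if f ∈ R then (0 : ℝ) else 1) =
      ((if f ∈ R then (0 : ℤ) else vl N 1 e f : ℤ) : ℝ) +
        (if e.1.2 < 0 then (if f ∈ R then 0 else out U f) else 0) := by
    intro e f
    by_cases a1 : f ∈ R
    · simp [a1]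
    · rw [if_neg a1, if_neg a1, if_neg a1]
      unfold vl out
      by_cases a2 : f ∈ N
      · simp [a2, hN a2]
      · have a3 : f ∉ U := fun h => a1 (by rw [hR, Finset.mem_sdiff]; exact ⟨h, a2⟩)
        by_cases a4 : (0 : ℤ) ≤ e.1.2
        · simp [a2, a4, not_lt.2 a4]
        · simp [a2, a3, a4, not_le.1 a4]
  have h4 : ∀ e, jmp R (fun _ => (1 : ℝ)) e = (secN U N 1 e : ℝ) +
      (if e.1.2 < 0 then jmp R (out U) e else 0) := by
    intro e
    have s1 := side e (lf e)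
    have s2 := side e (rt e)
    have e1 : jmp R (fun _ => (1 : ℝ)) e = (if lf e ∈ R then 0 else 1) -
        (if rt e ∈ R then 0 else 1) := rfl
    have e2 : (secN U N 1 e : ℝ) = ((if lf e ∈ R then (0 : ℤ) else vl N 1 e (lf e) : ℤ) : ℝ) -
        ((if rt e ∈ R then (0 : ℤ) else vl N 1 e (rt e) : ℤ) : ℝ) := by
      unfold secN
      rw [Int.cast_sub]
    have e3 : jmp R (out U) e = (if lf e ∈ R then 0 else out U (lf e)) -
        (if rt e ∈ R then 0 else out U (rt e)) := rfl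
    rw [e1, e2, e3, s1, s2]
    split_ifs <;> ring
  have h5 : ∑ e ∈ bd R, B e * jmp R (fun _ => (1 : ℝ)) e =
      ∑ e ∈ bd R, B e * (secN U N 1 e : ℝ) + H226.Flow R U B := by
    unfold H226.Flow
    rw [Finset.sum_filter, ← Finset.sum_add_distrib]
    refine Finset.sum_congr rfl fun e _ => ?_
    rw [h4 e]
    split_ifs
    · ring
    · ring
  rw [h5] at h1
  linarith

/-- **S.KEY, one explored set** -/
theorem key_num {b ε C η : ℝ} {l : ℕ} (hb : 0 < b)
    (hU : ∀ (U : Finset Z2) (S : Finset Bnd) (m : Bnd → ℤ) (B : Bnd → ℝ),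
      (∀ e, e ∉ S → B e = 0) → (∀ e, |B e| ≤ η) →
      ZB b U m B ≤ Real.exp ((helicity b + ε) / 2 * ∑ e ∈ S, B e ^ 2 + C * osc l S B) * Z b U)
    {U N : Finset Z2} (hN : N ⊆ U) {S : Finset Bnd} {B0 Bz : Bnd → ℝ} {ρV ρ' : Z2 → ℝ}
    (hS : ∀ e, e ∉ S → B0 e + Bz e = 0) (hη : ∀ e, |B0 e + Bz e| ≤ η)
    (hV : IsDiv (U \ N) (fun e => B0 e + Bz e) ρV) (h0 : IsDiv (U \ N) B0 ρ')
    (hz : ∀ e ∈ bd (U \ N), secN U N 1 e ≠ 0 → Bz e = 0) :
    KeyD b U N ρV ρ' (Real.exp ((helicity b + ε) / 2 * ∑ e ∈ S, (B0 e + Bz e) ^ 2 +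
      C * osc l S (fun e => B0 e + Bz e) + H226.Flow (U \ N) U B0 -
        Vr b (U \ nbF U N) B0 / 2)) := by
  unfold KeyD
  set R := U \ N with hR
  set R1 := U \ nbF U N with hR1
  have hsub : R1 ⊆ R := nb_sub U N hN
  set B : Bnd → ℝ := fun e => B0 e + Bz e with hBdef
  set X : ℝ := (helicity b + ε) / 2 * ∑ e ∈ S, (B0 e + Bz e) ^ 2 + C * osc l S B with hX
  -- the upper bound
  have u1 : ZB b R (secN U N 1) B ≤ Real.exp X * Z b R := hU R S (secN U N 1) B hS hη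
  have u2 := D.H469.ZB_eq hV b (secN U N 1)
  have u3 : ∑ e ∈ bd R, B e * (secN U N 1 e : ℝ) = ∑ e ∈ bd R, B0 e * (secN U N 1 e : ℝ) := by
    refine Finset.sum_congr rfl fun e he => ?_
    by_cases hm : secN U N 1 e = 0
    · rw [hm, Int.cast_zero, mul_zero, mul_zero]
    · show (B0 e + Bz e) * _ = _
      rw [hz e he hm, add_zero]
  have u4 : Zn b U N 1 ρV =
      Real.exp (-∑ e ∈ bd R, B0 e * (secN U N 1 e : ℝ)) * ZB b R (secN U N 1) B := by
    rw [u2, u3, ← mul_assoc, ← Real.exp_add, neg_add_cancel, Real.exp_zero, one_mul]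
    rfl
  -- the lower bound
  have h1 : IsDiv R1 B0 ρ' := fun f hf => h0 f (hsub hf)
  have l1 : Real.exp (Vr b R1 B0 / 2) * Z b R1 ≤ Zρ b R1 ρ' := by
    have := exp_Vr_le hb.le R1 B0
    rwa [ZB_eq_Zρ h1] at this
  have hf := flux_id hN h0
  have zR : 0 < Z b R := Z_pos hb.le R
  have z1 : 0 < Z b R1 := Z_pos hb.le _
  rw [u4]
  calc Real.exp (-∑ e ∈ bd R, B0 e * (secN U N 1 e : ℝ)) * ZB b R (secN U N 1) B * Z b R1
      ≤ Real.exp (-∑ e ∈ bd R, B0 e * (secN U N 1 e : ℝ)) * (Real.exp X * Z b R) *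
          Z b R1 := by
        gcongr
    _ = Real.exp (X + H226.Flow R U B0 - Vr b R1 B0 / 2) *
          (Real.exp (∑ f ∈ R, ρ' f) * (Real.exp (Vr b R1 B0 / 2) * Z b R1)) *
          Z b R := by
        have e1 : Real.exp (-∑ e ∈ bd R, B0 e * (secN U N 1 e : ℝ)) * Real.exp X =
            Real.exp (X + H226.Flow R U B0 - Vr b R1 B0 / 2) * Real.exp (∑ f ∈ R, ρ' f) *
              Real.exp (Vr b R1 B0 / 2) := by
          rw [← Real.exp_add, ← Real.exp_add, ← Real.exp_add]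
          congr 1
          linarith
        calc _ = (Real.exp (-∑ e ∈ bd R, B0 e * (secN U N 1 e : ℝ)) * Real.exp X) *
              (Z b R * Z b R1) := by ring
          _ = _ := by rw [e1]; ring
    _ ≤ Real.exp (X + H226.Flow R U B0 - Vr b R1 B0 / 2) *
          (Real.exp (∑ f ∈ R, ρ' f) * Zρ b R1 ρ') * Z b R := by
        gcongr

end Vale.Agent.P159.T1.S.H546
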