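import Vale.Agent.P159.T1.S.H546.KeyB

/-!
P159, sharp stage, row S.KEY (helper546): the constants.
-/

set_option autoImplicit false
set_option linter.all false

open MeasureTheory Filter Topology

namespace Vale.Agent.P159.T1.S.H546

open Vale.Agent.P159 Vale.Agent.P159.H353 Vale.Agent.P159.T1.H910 Vale.Agent.P159.T1.D

theorem KeyD.mono {b : ℝ} (hb : 0 < b) {U N : Finset Z2} {ρV ρ' : Z2 → ℝ} {M M' : ℝ}
    (h : KeyD b U N ρV ρ' M) (hM : M ≤ M') : KeyD b U N ρV ρ' M' := by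
  unfold KeyD at h ⊢
  refine h.trans ?_
  have h1 : 0 < Z b (U \ N) := Z_pos hb.le _
  have h2 : 0 ≤ Real.exp (∑ f ∈ U \ N, ρ' f) * Zρ b (U \ nbF U N) ρ' :=
    mul_nonneg (Real.exp_pos _).le (Zρ_pos hb.le _ _).le
  exact mul_le_mul_of_nonneg_right (mul_le_mul_of_nonneg_right hM h2) h1.le

/-- **S.KEY from the energies**: `x1` flux, `x2` variance, `x3` oscillation, `x4` total energy, `x5`
energy of the layer -/
theorem key_asm {b ε C η : ℝ} {l : ℕ} (hb : 0 < b) (hY : 0 ≤ helicity b) (hε : 0 ≤ ε)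
    (hC : 0 ≤ C)
    (hU : ∀ (U : Finset Z2) (S : Finset Bnd) (m : Bnd → ℤ) (B : Bnd → ℝ),
      (∀ e, e ∉ S → B e = 0) → (∀ e, |B e| ≤ η) →
      ZB b U m B ≤ Real.exp ((helicity b + ε) / 2 * ∑ e ∈ S, B e ^ 2 + C * osc l S B) * Z b U)
    {U N : Finset Z2} (hN : N ⊆ U) {S : Finset Bnd} {B0 Bz : Bnd → ℝ} {ρV ρ' : Z2 → ℝ}
    (hS : ∀ e, e ∉ S → B0 e + Bz e = 0) (hη : ∀ e, |B0 e + Bz e| ≤ η)
    (hV : IsDiv (U \ N) (fun e => B0 e + Bz e) ρV) (h0 : IsDiv (U \ N) B0 ρ')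
    (hz : ∀ e ∈ bd (U \ N), secN U N 1 e ≠ 0 → Bz e = 0)
    (hzs : ∀ e, e ∉ bd (U \ N) → Bz e = 0) (hbS : bd (U \ N) ⊆ S)
    {x1 x2 x3 x4 x5 : ℝ}
    (h1 : H226.Flow (U \ N) U B0 + helicity b * ∑ e ∈ bd (U \ N), B0 e * Bz e ≤ x1)
    (h2 : helicity b * ∑ e ∈ S, B0 e ^ 2 - x2 ≤ Vr b (U \ nbF U N) B0)
    (h3 : osc l S (fun e => B0 e + Bz e) ≤ x3)
    (h4 : ∑ e ∈ S, (B0 e + Bz e) ^ 2 ≤ x4)
    (h5 : helicity b / 2 * ∑ e ∈ S, Bz e ^ 2 ≤ x5) :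
    KeyD b U N ρV ρ' (Real.exp (x5 + (x1 + x2 / 2 + C * x3 + ε / 2 * x4))) := by
  refine (key_num hb hU hN hS hη hV h0 hz).mono hb (Real.exp_le_exp.2 ?_)
  have e1 : ∑ e ∈ S, B0 e * Bz e = ∑ e ∈ bd (U \ N), B0 e * Bz e := by
    refine (Finset.sum_subset hbS fun e _ he => ?_).symm
    rw [hzs e he, mul_zero]
  have e2 : ∑ e ∈ S, (B0 e + Bz e) ^ 2 = ∑ e ∈ S, B0 e ^ 2 + 2 * ∑ e ∈ S, B0 e * Bz e +
      ∑ e ∈ S, Bz e ^ 2 := by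
    rw [Finset.mul_sum, ← Finset.sum_add_distrib, ← Finset.sum_add_distrib]
    exact Finset.sum_congr rfl fun e _ => by ring
  have h6 : C * osc l S (fun e => B0 e + Bz e) ≤ C * x3 := mul_le_mul_of_nonneg_left h3 hC
  have h7 : ε / 2 * ∑ e ∈ S, (B0 e + Bz e) ^ 2 ≤ ε / 2 * x4 :=
    mul_le_mul_of_nonneg_left h4 (by linarith)
  have e3 : (helicity b + ε) / 2 * ∑ e ∈ S, (B0 e + Bz e) ^ 2 =
      helicity b / 2 * (∑ e ∈ S, B0 e ^ 2 + 2 * ∑ e ∈ S, B0 e * Bz e + ∑ e ∈ S, Bz e ^ 2) +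
        ε / 2 * ∑ e ∈ S, (B0 e + Bz e) ^ 2 := by
    rw [← e2]
    ring
  rw [← e1] at h1
  rw [e3]
  nlinarith [h1, h2, h5, h6, h7]

end Vale.Agent.P159.T1.S.H546
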