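import Vale.Agent.P159.T1.S.H546.KeyS

/-!
P159, sharp stage, row S.KEY (helper546): energies and oscillations.
-/

set_option autoImplicit false
set_option linter.all false

open Filter Topology

namespace Vale.Agent.P159.T1.S.H546

open Vale.Agent.P159 Vale.Agent.P159.T1.D Vale.Agent.P159.T1.S
open Vale.Agent.P159.T1.H565 (Kf kf mb mb_inj mb_mb Bb ang_pos ang_lt)
open Vale.Agent.P159.T1.H775 (lap stp)

lemma sqrt_lin {P Q ε CF : ℝ} (hP : 0 ≤ P) (hQ : 0 ≤ Q) (hε : 0 < ε) (hCF : 0 ≤ CF) :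
    ∃ C : ℝ, ∀ L : ℝ, 0 ≤ L → CF * Real.sqrt (P * L + Q) + CF ≤ ε * L + C := by
  set a : ℝ := ε / ((CF + 1) * (P + 1)) with ha
  have ha0 : 0 < a := by positivity
  refine ⟨ε * Q + CF * (1 / (4 * a)) + CF, fun L hL => ?_⟩
  have hD : 0 ≤ P * L + Q := by positivity
  have h1 : Real.sqrt (P * L + Q) ≤ a * (P * L + Q) + 1 / (4 * a) := by
    have h2 := Real.sq_sqrt hD
    set z := Real.sqrt (P * L + Q)
    rw [← h2]
    have h3 : 0 ≤ (2 * a * z - 1) ^ 2 / (4 * a) := by positivity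
    have h4 : (2 * a * z - 1) ^ 2 / (4 * a) = a * z ^ 2 + 1 / (4 * a) - z := by
      field_simp
      ring
    linarith
  have h5 : CF * (a * (P * L + Q)) ≤ ε * L + ε * Q := by
    have h6 : CF * (a * (P * L + Q)) = ε * (CF / (CF + 1)) * ((P * L + Q) / (P + 1)) := by
      rw [ha]
      field_simp
    have h7 : CF / (CF + 1) ≤ 1 := by
      rw [div_le_one (by linarith)]
      linarith
    have h8 : (P * L + Q) / (P + 1) ≤ L + Q := by
      rw [div_le_iff₀ (by linarith)]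
      nlinarith [mul_nonneg hP hQ]
    have h9 : 0 ≤ (P * L + Q) / (P + 1) := by positivity
    rw [h6]
    calc ε * (CF / (CF + 1)) * ((P * L + Q) / (P + 1)) ≤ ε * 1 * (L + Q) := by
          gcongr
      _ = ε * L + ε * Q := by ring
  have h10 := mul_le_mul_of_nonneg_left h1 hCF
  rw [mul_add] at h10
  linarith

open Classical in
/-- the field cut off on the bonds inside the slits -/
noncomputable def ct (r : ℕ) (B : Bnd → ℝ) (e : Bnd) : ℝ :=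
  if lf e ∉ slit r ∨ rt e ∉ slit r then B e else 0

lemma ct_bd {R r : ℕ} {N : Finset Z2} (B : Bnd → ℝ) {e : Bnd} (he : e ∈ bd (SB R r \ N)) :
    ct r B e = B e := by
  unfold ct
  rw [if_pos]
  rw [H565.mem_bd] at he
  rcases he with h | h
  · exact Or.inl fun h1 => slit_SB h1 (Finset.mem_sdiff.1 h).1
  · exact Or.inr fun h1 => slit_SB h1 (Finset.mem_sdiff.1 h).1

lemma ct_sq (r : ℕ) (B : Bnd → ℝ) (e : Bnd) : ct r B e ^ 2 ≤ B e ^ 2 := by
  unfold ct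
  split_ifs
  · exact le_rfl
  · nlinarith [sq_nonneg (B e)]

lemma ct_energy {r : ℕ} {B : Bnd → ℝ} {E : ℝ}
    (h : ∀ S : Finset Bnd, OffSl r S → ∑ e ∈ S, B e ^ 2 ≤ E) (S : Finset Bnd) :
    ∑ e ∈ S, ct r B e ^ 2 ≤ E := by
  classical
  have h1 : ∑ e ∈ S, ct r B e ^ 2 =
      ∑ e ∈ S.filter (fun e => lf e ∉ slit r ∨ rt e ∉ slit r), B e ^ 2 := by
    rw [Finset.sum_filter]
    refine Finset.sum_congr rfl fun e _ => ?_
    unfold ct
    split_ifs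
    · rfl
    · ring
  rw [h1]
  exact h _ fun e he => (Finset.mem_filter.1 he).2

lemma tent_ct {K c1 : ℝ} {n0 r : ℕ} {t : Z2 → ℝ} (ht : Tent K c1 n0 r t) (e : Bnd) :
    dr t e = ct r (dr t) e := by
  unfold ct
  split_ifs with h
  · rfl
  · push Not at h
    unfold dr
    rw [ht.slit _ h.1, ht.slit _ h.2, sub_zero]

/-- energy of the tent -/
lemma tent_en {Y K c1 : ℝ} {n0 r : ℕ} {t : Z2 → ℝ} {B : Bnd → ℝ} {E1 E2 : ℝ} (hY : 0 < Y)
    (ht : Tent K c1 n0 r t) (h1 : ∀ S : Finset Bnd, ∑ e ∈ S, B e ^ 2 ≤ E1)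
    (h2 : ∀ S : Finset Bnd, OffSl r S → ∑ e ∈ S, (B e - dr t e / Y) ^ 2 ≤ E2)
    (S : Finset Bnd) : ∑ e ∈ S, dr t e ^ 2 ≤ 2 * Y ^ 2 * (E1 + E2) := by
  rw [Finset.sum_congr rfl fun e _ => by rw [tent_ct ht e]]
  refine ct_energy (fun S hS => ?_) S
  have h3 : ∀ e, dr t e ^ 2 ≤ 2 * Y ^ 2 * (B e ^ 2 + (B e - dr t e / Y) ^ 2) := by
    intro e
    have e1 : dr t e = Y * (B e - (B e - dr t e / Y)) := by
      field_simp
      ring
    set D := B e - dr t e / Y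
    rw [e1]
    nlinarith [mul_nonneg (sq_nonneg Y) (sq_nonneg (B e + D))]
  refine (Finset.sum_le_sum fun e _ => h3 e).trans ?_
  rw [← Finset.mul_sum, Finset.sum_add_distrib]
  exact mul_le_mul_of_nonneg_left (add_le_add (h1 S) (h2 S hS)) (by positivity)

/-- energy of `v` -/
lemma v_en {Y K c1 : ℝ} {n0 r : ℕ} {R : Finset Z2} {t v : Z2 → ℝ} {B : Bnd → ℝ} {E1 E2 : ℝ}
    (hY : 0 < Y) (ht : Tent K c1 n0 r t) (hv : Harm R t v)
    (h1 : ∀ S : Finset Bnd, ∑ e ∈ S, B e ^ 2 ≤ E1)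
    (h2 : ∀ S : Finset Bnd, OffSl r S → ∑ e ∈ S, (B e - dr t e / Y) ^ 2 ≤ E2)
    (S : Finset Bnd) : ∑ e ∈ S, dr v e ^ 2 ≤ 2 * Y ^ 2 * (E1 + E2) :=
  H376.energy_le hv.2 hv.1 (tent_en hY ht h1 h2) S

/-- energy of the field -/
lemma b0_en {Y : ℝ} {r : ℕ} {v : Z2 → ℝ} {B : Bnd → ℝ} {E1 E2 : ℝ} (hY : 0 < Y)
    (h1 : ∀ S : Finset Bnd, ∑ e ∈ S, B e ^ 2 ≤ E1)
    (h2 : ∀ S : Finset Bnd, ∑ e ∈ S, dr v e ^ 2 ≤ 2 * Y ^ 2 * (E1 + E2))
    (S : Finset Bnd) :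
    ∑ e ∈ S, ct r (fun e => B e - dr v e / Y) e ^ 2 ≤ 2 * (E1 + 2 * (E1 + E2)) := by
  have h3 : ∀ e, ct r (fun e => B e - dr v e / Y) e ^ 2 ≤
      2 * (B e ^ 2 + 1 / Y ^ 2 * dr v e ^ 2) := by
    intro e
    refine (ct_sq _ _ _).trans ?_
    have e1 : 1 / Y ^ 2 * dr v e ^ 2 = (dr v e / Y) ^ 2 := by
      field_simp
    rw [e1]
    nlinarith [sq_nonneg (B e + dr v e / Y)]
  refine (Finset.sum_le_sum fun e _ => h3 e).trans ?_
  rw [← Finset.mul_sum, Finset.sum_add_distrib, ← Finset.mul_sum]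
  have h4 : 1 / Y ^ 2 * ∑ e ∈ S, dr v e ^ 2 ≤ 1 / Y ^ 2 * (2 * Y ^ 2 * (E1 + E2)) :=
    mul_le_mul_of_nonneg_left (h2 S) (by positivity)
  have e2 : 1 / Y ^ 2 * (2 * Y ^ 2 * (E1 + E2)) = 2 * (E1 + E2) := by
    field_simp
  rw [e2] at h4
  linarith [h1 S]

/-- energy of the total field -/
lemma tot_en {B B' : Bnd → ℝ} {E E' : ℝ} (h1 : ∀ S : Finset Bnd, ∑ e ∈ S, B e ^ 2 ≤ E)
    (h2 : ∀ S : Finset Bnd, ∑ e ∈ S, B' e ^ 2 ≤ E') (S : Finset Bnd) :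
    ∑ e ∈ S, (B e + B' e) ^ 2 ≤ 2 * (E + E') := by
  have h3 : ∀ e, (B e + B' e) ^ 2 ≤ 2 * (B e ^ 2 + B' e ^ 2) := by
    intro e
    nlinarith [sq_nonneg (B e - B' e)]
  refine (Finset.sum_le_sum fun e _ => h3 e).trans ?_
  rw [← Finset.mul_sum, Finset.sum_add_distrib]
  linarith [h1 S, h2 S]

/-- the decomposition of the field -/
lemma field_split {Y K c1 : ℝ} (hY : 0 < Y) {n0 r R : ℕ} {N : Finset Z2} {t v : Z2 → ℝ}
    (hv : Harm (SB R r \ N) t v) (B B' : Bnd → ℝ) :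
    (fun e => ct r (fun e => B e - dr v e / Y) e + B' e) =
      fun e => ct r (fun e => B e - dr t e / Y) e + (1 / Y) * dr (fun f => t f - v f) e +
        B' e := by
  funext e
  have e1 : dr (fun f => t f - v f) e = dr t e - dr v e := by
    unfold dr
    ring
  unfold ct
  split_ifs with h
  · rw [e1]
    ring
  · push Not at h
    have h1 : ∀ f, f ∈ slit r → t f - v f = 0 := fun f hf => by
      rw [hv.1 f fun h2 => slit_SB hf (Finset.mem_sdiff.1 h2).1, sub_self]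
    have h2 : dr (fun f => t f - v f) e = 0 := by
      unfold dr
      simp only
      rw [h1 _ h.1, h1 _ h.2, sub_self]
    rw [h2]
    ring

/-- oscillation of the total field -/
lemma field_osc {Y : ℝ} (hY : 0 < Y) {r R : ℕ} {N : Finset Z2} {t v : Z2 → ℝ}
    (hv : Harm (SB R r \ N) t v) (B B' : Bnd → ℝ) (l : ℕ) (S : Finset Bnd) {E2 O1 O2 : ℝ}
    (h2 : ∀ S : Finset Bnd, OffSl r S → ∑ e ∈ S, (B e - dr t e / Y) ^ 2 ≤ E2)
    (h3 : osc l S (dr fun f => t f - v f) ≤ O1) (h4 : osc l S B' ≤ O2) :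
    osc l S (fun e => ct r (fun e => B e - dr v e / Y) e + B' e) ≤
      4 * (((2 * l + 1) ^ 2 : ℕ) * (4 * E2) + 1 / Y ^ 2 * O1 + O2) := by
  rw [field_split (K := 0) (c1 := 0) (n0 := 0) hY hv B B']
  refine (H565.osc_add3 _ _ _ _ _).trans ?_
  have h5 := H565.osc_le_energy (l := l) (S := S) (ct_energy h2)
  have h6 : osc l S (fun e => (1 / Y) * dr (fun f => t f - v f) e) =
      1 / Y ^ 2 * osc l S (dr fun f => t f - v f) := by
    unfold osc
    rw [Finset.mul_sum]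
    refine Finset.sum_congr rfl fun e _ => ?_
    rw [Finset.mul_sum]
    refine Finset.sum_congr rfl fun u _ => ?_
    field_simp
  have h7 : 1 / Y ^ 2 * osc l S (dr fun f => t f - v f) ≤ 1 / Y ^ 2 * O1 :=
    mul_le_mul_of_nonneg_left h3 (by positivity)
  rw [h6]
  linarith

/-- size of the total field -/
lemma field_sup {Y : ℝ} (hY : 0 < Y) {r : ℕ} {t v : Z2 → ℝ} (B B' : Bnd → ℝ) {a1 a2 a3 a4 : ℝ}
    (h1 : ∀ e, |B e| ≤ a1) (h2 : ∀ e, |B' e| ≤ a2) (h3 : ∀ e, |dr t e| ≤ a3)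
    (h4 : ∀ e, |dr (fun f => t f - v f) e| ≤ a4) (e : Bnd) :
    |ct r (fun e => B e - dr v e / Y) e + B' e| ≤ a1 + a2 + (a3 + a4) / Y := by
  have e1 : dr v e = dr t e - dr (fun f => t f - v f) e := by
    unfold dr
    ring
  have h5 : |dr v e| ≤ a3 + a4 := by
    rw [e1]
    exact (abs_sub _ _).trans (add_le_add (h3 e) (h4 e))
  have h6 : |dr v e / Y| ≤ (a3 + a4) / Y := by
    rw [abs_div, abs_of_pos hY]
    gcongr
  have h7 : |ct r (fun e => B e - dr v e / Y) e| ≤ a1 + (a3 + a4) / Y := by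
    unfold ct
    split_ifs
    · exact (abs_sub _ _).trans (add_le_add (h1 e) h6)
    · rw [abs_zero]
      have := (abs_nonneg _).trans (h1 e)
      have := (abs_nonneg _).trans h6
      linarith
  refine (abs_add_le _ _).trans ?_
  linarith [h2 e]

end Vale.Agent.P159.T1.S.H546
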