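import Vale.Agent.P159.T1.S.H546.KeyC
import Vale.Agent.P159.T1.S.H546.BeE
import Vale.Agent.P159.T1.S.H757.Bridge
import Vale.Agent.P159.T1.S.H376.En

/-!
P159, sharp stage, row S.KEY (helper546): supports, divergences, small facts.
-/

set_option autoImplicit false
set_option linter.all false

open Filter Topology

namespace Vale.Agent.P159.T1.S.H546

open Vale.Agent.P159 Vale.Agent.P159.T1.D Vale.Agent.P159.T1.S
open Vale.Agent.P159.T1.H565 (Kf kf mb mb_inj mb_mb Bb ang_pos ang_lt nrm abs_le_nrm abs_le_nrm')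
open Vale.Agent.P159.T1.H775 (lap stp)

/-! ### support of the layer field -/

/-- the faces of the two strips -/
def Ts (q r : ℕ) (c1 : ℝ) : Set Z2 :=
  strip q 1 (⌊2 * c1 * r⌋₊ + 2) ∪ mir r ⁻¹' strip q 1 (⌊2 * c1 * r⌋₊ + 2)

lemma cone_left {q : ℕ} (hq : 1 ≤ q) {f : Z2} (h : f ∈ cone q) : f.1 ≤ -1 := by
  obtain ⟨h1, h2⟩ := h
  have : (1 : ℤ) ≤ q := by exact_mod_cast hq
  nlinarith

lemma near_col {m : ℝ} {e : Bnd} (h : nrm (bs e) < m ∨ nrm (bt e) < m) :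
    -((lf e).1 : ℝ) < m + 1 ∧ -((rt e).1 : ℝ) < m + 1 := by
  have h1 : -((e.1.1 : ℤ) : ℝ) < m + 1 ∧ (e.2 = true → -((e.1.1 : ℤ) : ℝ) < m) := by
    rcases h with h | h
    · have h2 := abs_le_nrm (bs e)
      have h3 := neg_abs_le ((bs e).1 : ℝ)
      unfold bs at h2 h3 h
      exact ⟨by linarith, fun _ => by linarith⟩
    · have h2 := abs_le_nrm (bt e)
      have h3 := neg_abs_le ((bt e).1 : ℝ)
      unfold bt at h2 h3 h
      split_ifs at h2 h3 h with h4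
      · simp only at h2 h3 h
        exact ⟨by linarith, fun _ => by linarith⟩
      · simp only at h2 h3 h
        push_cast at h2 h3 h
        exact ⟨by linarith, fun h5 => absurd h5 h4⟩
  unfold lf rt
  by_cases h2 : e.2 = true
  · rw [if_pos h2, if_pos h2]
    have h3 := h1.2 h2
    simp only
    push_cast
    exact ⟨by linarith, by linarith⟩
  · rw [if_neg h2, if_neg h2]
    exact ⟨h1.1, h1.1⟩

lemma Kz_supp {q n0 r : ℕ} {c1 : ℝ} (hq : 1 ≤ q) (hm : 1 ≤ c1 * r) {e : Bnd}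
    (h : Kz q n0 r c1 e ≠ 0) :
    e.1.2 < 0 ∧ rt e ∈ strip q 1 (⌊2 * c1 * r⌋₊ + 2) ∧
      (lf e ∈ strip q 1 (⌊2 * c1 * r⌋₊ + 2) ∨ lf e ∈ slit r) := by
  have h1 : kf q (1 / ang q) 0 e ≠ 0 := fun h1 => h (by unfold Kz Kf; rw [h1, zero_mul])
  have h2 : (rt e ∈ cone q ∧ lf e ∈ cone q) ∨ (rt e ∈ cone q ∧ e.2 = false ∧ e.1.2 = -1) := by
    by_contra h2
    unfold kf at h1
    rw [if_neg h2] at h1
    exact h1 rfl
  have h3 : nrm (bs e) < c1 * r ∨ nrm (bt e) < c1 * r := by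
    by_contra h3
    push Not at h3
    exact h (H565.Kf_far (by linarith) h3.1 h3.2)
  obtain ⟨h4, h5⟩ := near_col h3
  have e2 : 2 * c1 * (r : ℝ) = 2 * (c1 * r) := by ring
  rw [e2]
  rcases h2 with ⟨h6, h7⟩ | ⟨h6, h7, h8⟩
  · refine ⟨?_, H757.strip_of h6 (cone_left hq h6) (by linarith),
      Or.inl (H757.strip_of h7 (cone_left hq h7) (by linarith))⟩
    have := h7.1
    unfold lf at this
    split_ifs at this
    · simp only at this
      omega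
    · omega
  · refine ⟨by omega, H757.strip_of h6 (cone_left hq h6) (by linarith), Or.inr ?_⟩
    have h9 := cone_left hq h6
    unfold rt at h9
    unfold lf
    rw [if_neg (by simp [h7])] at h9 ⊢
    simp only at h9
    exact ⟨h8, Or.inl (by omega)⟩

lemma mir_slit {r : ℕ} {f : Z2} : mir r f ∈ slit r ↔ f ∈ slit r := by
  unfold slit mir
  simp only [Set.mem_setOf_eq]
  constructor <;> rintro ⟨h1, h2⟩ <;> refine ⟨h1, ?_⟩ <;> omega

/-- support of the layer field -/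
lemma Bz_supp {Y : ℝ} {q n0 r : ℕ} {c1 : ℝ} (hq : 1 ≤ q) (hm : 1 ≤ c1 * r) {e : Bnd}
    (h : Bz Y q n0 r c1 e ≠ 0) :
    e.1.2 < 0 ∧ (lf e ∈ Ts q r c1 ∨ rt e ∈ Ts q r c1) ∧ (lf e ∈ Ts q r c1 ∨ lf e ∈ slit r) ∧
      (rt e ∈ Ts q r c1 ∨ rt e ∈ slit r) := by
  have h1 : Kz q n0 r c1 e ≠ 0 ∨ Kz q n0 r c1 (mb r e) ≠ 0 := by
    by_contra h1
    push Not at h1
    apply h
    unfold Bz H565.mB
    rw [h1.1, h1.2]
    simp
  rcases h1 with h1 | h1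
  · obtain ⟨a1, a2, a3⟩ := Kz_supp hq hm h1
    refine ⟨a1, Or.inr (Or.inl a2), ?_, Or.inl (Or.inl a2)⟩
    rcases a3 with a3 | a3
    · exact Or.inl (Or.inl a3)
    · exact Or.inr a3
  · obtain ⟨a1, a2, a3⟩ := Kz_supp hq hm h1
    have e0 : (mb r e).1.2 = e.1.2 := by
      unfold mb
      split_ifs <;> rfl
    rw [e0] at a1
    rw [H565.lf_mb] at a3
    rw [H565.rt_mb] at a2
    refine ⟨a1, ?_⟩
    by_cases h2 : e.2 = true
    · rw [if_pos h2] at a2 a3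
      refine ⟨Or.inl (Or.inr a2), Or.inl (Or.inr a2), ?_⟩
      rcases a3 with a3 | a3
      · exact Or.inl (Or.inr a3)
      · exact Or.inr (mir_slit.1 a3)
    · rw [if_neg h2] at a2 a3
      refine ⟨Or.inr (Or.inr a2), ?_, Or.inl (Or.inr a2)⟩
      rcases a3 with a3 | a3
      · exact Or.inl (Or.inr a3)
      · exact Or.inr (mir_slit.1 a3)

lemma strip_SB {q R r : ℕ} {c1 : ℝ} (hq : 1 ≤ q) (hc0 : 0 ≤ c1) (hc : c1 ≤ 1 / 16)
    (hr : 16 ≤ r) (hR : r ≤ R) {f : Z2} (h : f ∈ strip q 1 (⌊2 * c1 * r⌋₊ + 2)) :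
    f ∈ SB R r := by
  obtain ⟨⟨h1, h2⟩, h3, h4⟩ := h
  have hr' : (16 : ℝ) ≤ r := by exact_mod_cast hr
  have h5 : (⌊2 * c1 * r⌋₊ : ℝ) ≤ 2 * c1 * r := Nat.floor_le (by positivity)
  have h6 : 8 * (⌊2 * c1 * r⌋₊ : ℝ) ≤ r := by nlinarith
  have h7 : 8 * ⌊2 * c1 * r⌋₊ ≤ r := by exact_mod_cast h6
  have hq' : (1 : ℤ) ≤ q := by exact_mod_cast hq
  have h8 : -1 - f.2 ≤ -f.1 := by nlinarith
  rw [H565.mem_SB]
  push_cast at h4
  refine ⟨⟨?_, ?_, ?_, ?_⟩, ?_⟩ <;> omega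

lemma Ts_SB {q R r : ℕ} {c1 : ℝ} (hq : 1 ≤ q) (hc0 : 0 ≤ c1) (hc : c1 ≤ 1 / 16)
    (hr : 16 ≤ r) (hR : r ≤ R) {f : Z2} (h : f ∈ Ts q r c1) : f ∈ SB R r := by
  rcases h with h | h
  · exact strip_SB hq hc0 hc hr hR h
  · exact H565.mir_mem_SB.1 (strip_SB hq hc0 hc hr hR h)

lemma Ts_Tz {q R r : ℕ} {c1 : ℝ} {f : Z2} (h : f ∈ Ts q r c1) : f ∈ Tz q r c1 (SB R r) :=
  Or.inl h

lemma slit_SB {R r : ℕ} {f : Z2} (h : f ∈ slit r) : f ∉ SB R r := by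
  rw [H565.mem_SB]
  rintro ⟨_, h2⟩
  exact h2 h

/-- the layer field vanishes where the boundary value of the explored sector is not `0` -/
lemma Bz_sec {Y : ℝ} {q n0 R r : ℕ} {c1 : ℝ} (hq : 1 ≤ q) (hm : 1 ≤ c1 * r) {N : Finset Z2}
    (hN : Expl (SB R r) (Tz q r c1 (SB R r)) N) {e : Bnd} (he : secN (SB R r) N 1 e ≠ 0) :
    Bz Y q n0 r c1 e = 0 := by
  by_contra h
  obtain ⟨h1, h2, h3, h4⟩ := Bz_supp hq hm h
  have h5 : ∀ f, f ∈ Ts q r c1 ∨ f ∈ slit r → f ∉ N := by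
    rintro f (hf | hf) hfN
    · exact hN.2.1 f hfN (Ts_Tz hf)
    · exact slit_SB hf (hN.1 hfN)
  apply he
  unfold secN vl
  rw [if_neg (c := lf e ∈ N ∨ 0 ≤ e.1.2) (by
    rintro (h6 | h6)
    · exact h5 _ h3 h6
    · omega), if_neg (c := rt e ∈ N ∨ 0 ≤ e.1.2) (by
    rintro (h6 | h6)
    · exact h5 _ h4 h6
    · omega)]
  simp

/-- the layer field lives on the bonds of `U \ N` -/
lemma Bz_bd {Y : ℝ} {q n0 R r : ℕ} {c1 : ℝ} (hq : 1 ≤ q) (hm : 1 ≤ c1 * r) (hc0 : 0 ≤ c1)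
    (hc : c1 ≤ 1 / 16) (hr : 16 ≤ r) (hR : r ≤ R) {N : Finset Z2}
    (hN : Expl (SB R r) (Tz q r c1 (SB R r)) N) {e : Bnd} (he : e ∉ bd (SB R r \ N)) :
    Bz Y q n0 r c1 e = 0 := by
  by_contra h
  obtain ⟨h1, h2, h3, h4⟩ := Bz_supp hq hm h
  apply he
  rw [H565.mem_bd]
  have h5 : ∀ f, f ∈ Ts q r c1 → f ∈ SB R r \ N := fun f hf =>
    Finset.mem_sdiff.2 ⟨Ts_SB hq hc0 hc hr hR hf, fun h6 => hN.2.1 f h6 (Ts_Tz hf)⟩
  rcases h2 with h2 | h2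
  · exact Or.inl (h5 _ h2)
  · exact Or.inr (h5 _ h2)

/-! ### support of the main field -/

lemma Be_supp {Y V : ℝ} {q n0 r : ℕ} {κ x y s c1 : ℝ} (hn : 1 ≤ n0) (h1 : (n0 : ℝ) ≤ c1 * r)
    (h2 : c1 * r ≤ (r : ℝ) / 4) (hr : 3 ≤ r) (hs : 0 < s) (hx : s < x) (hx1 : s + x < 1) {e : Bnd}
    (he : e ∉ H565.Sbig r) : Be Y V q n0 r κ x y s c1 e = 0 := by
  have hb := H565.BB_supp (q := q) (c₂ := 1) (c₁ := 1) (n0 := n0) (κ := κ) (y := y) hr hs hx hx1 he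
  have hbig : ¬ ((-(4 * r : ℤ) ≤ e.1.1 ∧ e.1.1 ≤ 4 * r) ∧
      (-(4 * r : ℤ) ≤ e.1.2 ∧ e.1.2 ≤ 4 * r)) := by
    intro h
    apply he
    unfold H565.Sbig
    rw [Finset.mem_product, Finset.mem_product, Finset.mem_Icc, Finset.mem_Icc]
    exact ⟨h, Finset.mem_univ _⟩
  have a1 : ¬ (|e.1.1| ≤ (r : ℤ) ∧ |e.1.2| ≤ (r : ℤ)) := by
    rintro ⟨h1, h2⟩
    rw [abs_le] at h1 h2
    apply hbig
    omega
  have a2 : ¬ (|(mb r e).1.1| ≤ (r : ℤ) ∧ |(mb r e).1.2| ≤ (r : ℤ)) := by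
    rintro ⟨h1, h2⟩
    rw [abs_le] at h1 h2
    apply hbig
    unfold mb at h1 h2
    split_ifs at h1 h2 <;> simp only at h1 h2 <;> omega
  have a3 : e ∉ H565.Sb r := by
    unfold H565.Sb
    rw [Finset.mem_product, Finset.mem_product, Finset.mem_Ico, Finset.mem_Ico]
    rintro ⟨⟨a, b⟩, _⟩
    apply hbig
    omega
  have a4 : mb r e ∉ H565.Sb r := by
    unfold H565.Sb
    rw [Finset.mem_product, Finset.mem_product, Finset.mem_Ico, Finset.mem_Ico]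
    rintro ⟨⟨a, b⟩, _⟩
    apply hbig
    unfold mb at a b
    split_ifs at a b <;> simp only at a b <;> omega
  have k1 : ∀ e', ¬ (|e'.1.1| ≤ (r : ℤ) ∧ |e'.1.2| ≤ (r : ℤ)) → Bm Y V q n0 r c1 e' = 0 := by
    intro e' he'
    have h3 := Bm_le (Y := Y) (V := V) (q := q) hn h1 h2 e'
    have h4 : g1 n0 r e' = 0 := by
      have h5 := H565.Kf_small (q := q) (c₂ := 1) (c₁ := 1) (a := (n0 : ℝ)) hr he'
      have h6 : Kf q 1 1 (clp n0 ((r : ℝ) / 4)) e' = g1 n0 r e' := by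
        unfold Kf kf g1
        split_ifs <;> ring
      rw [← h6]
      exact h5
    rw [h4, abs_zero, mul_zero] at h3
    exact abs_nonpos_iff.1 h3
  unfold Be
  have e1 : H565.mB r (Bm Y V q n0 r c1) e = 0 := by
    have := H565.abs_mB r (Bm Y V q n0 r c1) e
    rw [k1 _ a2, abs_zero] at this
    exact abs_eq_zero.1 this
  have e2 : H565.mB r (Bb r κ x y s) e = 0 := by
    have := H565.abs_mB r (Bb r κ x y s) e
    rw [H565.Bb_supp hs (by omega) hx hx1 a4, abs_zero] at this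
    exact abs_eq_zero.1 this
  rw [k1 _ a1, e1, e2, H565.Bb_supp hs (by omega) hx hx1 a3]
  ring

/-! ### the tents -/

lemma nm_stp (d : Bool) (f : Z2) : nm (stp d f) ≤ nm f + 1 := by
  unfold nm stp
  split_ifs <;> simp only <;> omega

lemma ns_stp (r : ℕ) (d : Bool) (f : Z2) : ns r (stp d f) ≤ ns r f + 1 := by
  unfold ns nm mir stp
  split_ifs <;> simp only <;> omega

/-- the gradient across a bond is a forward difference -/
lemma dr_fwd (w : Z2 → ℝ) (e : Bnd) : ∃ (d : Bool) (f : Z2), |dr w e| = |w (stp d f) - w f| := by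
  obtain ⟨⟨i, j⟩, c⟩ := e
  cases c
  · refine ⟨true, (i, j - 1), ?_⟩
    unfold dr lf rt stp
    simp
  · refine ⟨false, (i - 1, j), ?_⟩
    unfold dr lf rt stp
    simp only [if_true, Bool.false_eq_true, if_false, sub_add_cancel]
    rw [abs_sub_comm]

/-- the gradient of the tent is small -/
lemma tent_sup {K c1 : ℝ} {n0 r : ℕ} {t : Z2 → ℝ} (hK : 0 < K) (hn : 1 ≤ n0)
    (ht : Tent K c1 n0 r t) (e : Bnd) : |dr t e| ≤ 2 * K / n0 := by
  obtain ⟨d, f, h⟩ := dr_fwd t e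
  rw [h]
  have hn' : (0 : ℝ) < n0 := by exact_mod_cast (by omega : 0 < n0)
  by_cases h1 : 2 * (ns r f + 1) ≤ n0
  · have h2 := ns_stp r d f
    rw [ht.near f (by omega), ht.near (stp d f) (by omega), sub_zero, abs_zero]
    positivity
  · have h2 : (n0 : ℝ) < 2 * (ns r f + 1) := by
      have : n0 < 2 * (ns r f + 1) := by omega
      exact_mod_cast this
    have h3 := ht.grad f d
    rw [le_div_iff₀ hn']
    have h4 : 0 ≤ |t (stp d f) - t f| := abs_nonneg _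
    nlinarith

/-- the tent vanishes far out -/
lemma tent_far {K c1 : ℝ} {n0 r : ℕ} {t : Z2 → ℝ} (hc0 : 0 ≤ c1) (hc : c1 ≤ 1 / 16)
    (ht : Tent K c1 n0 r t) {f : Z2} (h : t f ≠ 0) :
    (-(2 * r : ℤ) ≤ f.1 ∧ f.1 ≤ 2 * r) ∧ (-(2 * r : ℤ) ≤ f.2 ∧ f.2 ≤ 2 * r) := by
  have h1 : ¬ (2 * c1 * r ≤ ns r f) := fun h1 => h (ht.far f h1)
  push Not at h1
  have h2 : (ns r f : ℝ) < r := by
    have : (0 : ℝ) ≤ r := Nat.cast_nonneg r
    nlinarith
  have h3 : ns r f < r := by exact_mod_cast h2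
  unfold ns nm mir at h3
  simp only at h3
  omega

/-- the gradient of a function which agrees with the tent off `R` vanishes off the bonds of `R` and
the big box -/
lemma dr_supp {K c1 : ℝ} {n0 r : ℕ} {t v : Z2 → ℝ} {R : Finset Z2} (hc0 : 0 ≤ c1)
    (hc : c1 ≤ 1 / 16) (hr : 1 ≤ r) (ht : Tent K c1 n0 r t) (hv : ∀ f, f ∉ R → v f = t f)
    {e : Bnd} (h1 : e ∉ bd R) (h2 : e ∉ H565.Sbig r) : dr v e = 0 := by
  rw [H565.mem_bd, not_or] at h1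
  have hbig : ¬ ((-(4 * r : ℤ) ≤ e.1.1 ∧ e.1.1 ≤ 4 * r) ∧
      (-(4 * r : ℤ) ≤ e.1.2 ∧ e.1.2 ≤ 4 * r)) := by
    intro h
    apply h2
    unfold H565.Sbig
    rw [Finset.mem_product, Finset.mem_product, Finset.mem_Icc, Finset.mem_Icc]
    exact ⟨h, Finset.mem_univ _⟩
  have h3 : t (lf e) = 0 := by
    by_contra h3
    obtain ⟨⟨a1, a2⟩, a3, a4⟩ := tent_far hc0 hc ht h3
    apply hbig
    unfold lf at a1 a2 a3 a4
    split_ifs at a1 a2 a3 a4 <;> omega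
  have h4 : t (rt e) = 0 := by
    by_contra h4
    obtain ⟨⟨a1, a2⟩, a3, a4⟩ := tent_far hc0 hc ht h4
    apply hbig
    unfold rt at a1 a2 a3 a4
    split_ifs at a1 a2 a3 a4 <;> omega
  unfold dr
  rw [hv _ h1.1, hv _ h1.2, h3, h4, sub_zero]

/-! ### divergences, congruences -/

lemma dv_dr (v : Z2 → ℝ) (f : Z2) : H565.dv (dr v) f = -lap v f := H775.dvg_dr v f

lemma isDiv_B0 {Y V : ℝ} {q n0 r : ℕ} {κ x y s c1 : ℝ} {U R : Finset Z2} {v : Z2 → ℝ}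
    (hRU : R ⊆ U) (h : IsDiv U (Be Y V q n0 r κ x y s c1) (rp Y V q n0 r κ x y s c1))
    (hv : ∀ f ∈ R, lap v f = 0) :
    IsDiv R (B0 Y V q n0 r κ x y s c1 v) (rp Y V q n0 r κ x y s c1) := by
  rw [H565.isDiv_iff] at h ⊢
  intro f hf
  have h1 := h f (hRU hf)
  have h2 := dv_dr v f
  rw [hv f hf, neg_zero] at h2
  have e1 : H565.dv (B0 Y V q n0 r κ x y s c1 v) f =
      H565.dv (Be Y V q n0 r κ x y s c1) f - H565.dv (dr v) f / Y := by
    unfold H565.dv B0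
    ring
  rw [e1, h1, h2]
  simp

lemma isDiv_sum {Y V : ℝ} {q n0 r : ℕ} {κ x y s c1 : ℝ} {R : Finset Z2} {B B' : Bnd → ℝ}
    (h : IsDiv R B (rp Y V q n0 r κ x y s c1)) (h' : IsDiv R B' (rz Y q n0 r c1)) :
    IsDiv R (fun e => B e + B' e) (D.rho Y V q n0 r κ x y s) := by
  rw [H565.isDiv_iff] at h h' ⊢
  intro f hf
  rw [H565.dv_add, h f hf, h' f hf]
  unfold rp
  ring

lemma sides_bd {R : Finset Z2} {f : Z2} (hf : f ∈ R) {e : Bnd} (he : e ∈ sides f) : e ∈ bd R :=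
  Finset.mem_biUnion.2 ⟨f, hf, he⟩

lemma isDiv_congr {R : Finset Z2} {B B' : Bnd → ℝ} {ρ : Z2 → ℝ} (h : ∀ e ∈ bd R, B' e = B e)
    (hB : IsDiv R B ρ) : IsDiv R B' ρ := by
  intro f hf
  rw [← hB f hf, h _ (sides_bd hf (by simp [sides])), h _ (sides_bd hf (by simp [sides])),
    h _ (sides_bd hf (by simp [sides])), h _ (sides_bd hf (by simp [sides]))]

lemma Vr_congr {b : ℝ} {R : Finset Z2} {B B' : Bnd → ℝ} (h : ∀ e ∈ bd R, B' e = B e) :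
    Vr b R B' = Vr b R B := by
  have : (fun h : Z2 → ℤ => pr R B' 0 h ^ 2) = fun h : Z2 → ℤ => pr R B 0 h ^ 2 := by
    funext h'
    unfold pr
    rw [Finset.sum_congr rfl fun e he => by rw [h e he]]
  unfold Vr
  rw [this]

lemma Flow_congr {R U : Finset Z2} {B B' : Bnd → ℝ} (h : ∀ e ∈ bd R, B' e = B e) :
    H226.Flow R U B' = H226.Flow R U B := by
  unfold H226.Flow
  exact Finset.sum_congr rfl fun e he => by rw [h e (Finset.mem_filter.1 he).1]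

lemma bd_mono {R R' : Finset Z2} (h : R ⊆ R') : bd R ⊆ bd R' :=
  Finset.biUnion_subset_biUnion_of_subset_left _ h

end Vale.Agent.P159.T1.S.H546
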