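import Vale.Agent.P159.T1.H565.Upm4

/-!
P159, sharp stage, row S.KEY (helper546): the explicit fields and charges.

* `Bz`: the layer field (unit height difference across the cone below the lower lip), both tips;
* `rho1`: the charges `rho` without those of the layer;
* `EE`: a field of the charges `rho1`, `EE + Bz` is a field of the charges `rho`.
-/

set_option autoImplicit false
set_option linter.all false

open Filter Topology

namespace Vale.Agent.P159.T1.S.H546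

open Vale.Agent.P159.T1.D
open Vale.Agent.P159.T1.H565 (Kf mB BB isDiv_Kf isDiv_mB isDiv_BB isDiv_iff dv_add ang_pos ang_lt)

/-- the charge parameter of the layer -/
noncomputable def aa (q : ℕ) : ℝ := (2 * Real.pi - ang q) / (2 * Real.pi)

/-- the layer field of one tip -/
noncomputable def Bz0 (Y : ℝ) (q n0 r : ℕ) (c1 : ℝ) (e : Bnd) : ℝ :=
  Kf q (1 / (Y * ang q)) 0 (clp n0 (c1 * r)) e

/-- the layer field -/
noncomputable def Bz (Y : ℝ) (q n0 r : ℕ) (c1 : ℝ) (e : Bnd) : ℝ :=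
  Bz0 Y q n0 r c1 e + mB r (Bz0 Y q n0 r c1) e

/-- the same charges with the optimal coefficients, one tip -/
noncomputable def Ka (Y : ℝ) (q n0 r : ℕ) (c1 : ℝ) (e : Bnd) : ℝ :=
  Kf q (aa q / (Y * ang q)) (-(aa q / (Y * (2 * Real.pi - ang q)))) (clp n0 (c1 * r)) e

/-- the remaining charges -/
noncomputable def rho1 (Y V : ℝ) (q n0 r : ℕ) (κ x y s c1 : ℝ) (f : Z2) : ℝ :=
  D.rho Y V q n0 r κ x y s f -
    (ro Y (aa q) q (clp n0 (c1 * r)) f + ro Y (aa q) q (clp n0 (c1 * r)) (mir r f))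

/-- the field of the remaining charges -/
noncomputable def EE (Y V : ℝ) (q n0 r : ℕ) (κ x y s c1 : ℝ) (e : Bnd) : ℝ :=
  BB q (V / (Y * ang q)) (-(V / (Y * (2 * Real.pi - ang q)))) n0 r κ x y s e -
    (Ka Y q n0 r c1 e + mB r (Ka Y q n0 r c1) e)

theorem isDiv_two {R r : ℕ} {B : Bnd → ℝ} {ρ : Z2 → ℝ} (h : IsDiv (SB R r) B ρ) :
    IsDiv (SB R r) (fun e => B e + mB r B e) (fun f => ρ f + ρ (mir r f)) := by
  have h2 := isDiv_mB h
  rw [isDiv_iff] at h h2 ⊢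
  intro f hf
  rw [dv_add, h f hf, h2 f hf]

theorem isDiv_Ka {Y : ℝ} {q n0 R r : ℕ} (hq : 1 ≤ q) (c1 : ℝ) :
    IsDiv (SB R r) (Ka Y q n0 r c1) (ro Y (aa q) q (clp n0 (c1 * r))) := by
  have h := isDiv_Kf (Y := Y) (V := aa q) (R := R) (r := r) hq (clp n0 (c1 * r)) 0
  simp only [add_zero] at h
  exact h

theorem isDiv_Bz0 {Y : ℝ} (hY : 0 < Y) {q n0 R r : ℕ} (hq : 1 ≤ q) (c1 : ℝ) :
    IsDiv (SB R r) (Bz0 Y q n0 r c1) (ro Y (aa q) q (clp n0 (c1 * r))) := by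
  have h := isDiv_Kf (Y := Y) (V := aa q) (R := R) (r := r) hq (clp n0 (c1 * r))
    (1 / (2 * Real.pi * Y))
  have hd := ang_pos hq
  have hd' : 0 < 2 * Real.pi - ang q := by linarith [ang_lt q]
  have hp := Real.pi_pos
  have e1 : aa q / (Y * ang q) + 1 / (2 * Real.pi * Y) = 1 / (Y * ang q) := by
    unfold aa
    field_simp
    ring
  have e2 : -(aa q / (Y * (2 * Real.pi - ang q))) + 1 / (2 * Real.pi * Y) = 0 := by
    unfold aa
    field_simp
    ring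
  rw [e1, e2] at h
  exact h

/-- the divergence of the layer field -/
theorem isDiv_Bz {Y : ℝ} (hY : 0 < Y) {q n0 R r : ℕ} (hq : 1 ≤ q) (c1 : ℝ) :
    IsDiv (SB R r) (Bz Y q n0 r c1) (fun f => ro Y (aa q) q (clp n0 (c1 * r)) f +
      ro Y (aa q) q (clp n0 (c1 * r)) (mir r f)) :=
  isDiv_two (isDiv_Bz0 hY hq c1)

/-- the divergence of `EE` -/
theorem isDiv_EE {Y V : ℝ} {q n0 R r : ℕ} {κ x y s : ℝ} (hq : 1 ≤ q) (hr : 1 ≤ r)
    (hs : 0 < s) (hx : s < x) (hx1 : s + x < 1) (hy : s < y) (hy1 : s + y < 1) (c1 : ℝ) :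
    IsDiv (SB R r) (EE Y V q n0 r κ x y s c1) (rho1 Y V q n0 r κ x y s c1) := by
  have h1 := isDiv_BB (Y := Y) (V := V) (R := R) (n0 := n0) (κ := κ) hq 0 hr hs hx hx1 hy hy1
  simp only [add_zero] at h1
  have h2 := isDiv_two (isDiv_Ka (Y := Y) (n0 := n0) (R := R) (r := r) hq c1)
  rw [isDiv_iff] at h1 h2 ⊢
  intro f hf
  have e1 : H565.dv (EE Y V q n0 r κ x y s c1) f =
      H565.dv (BB q (V / (Y * ang q)) (-(V / (Y * (2 * Real.pi - ang q)))) n0 r κ x y s) f -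
        H565.dv (fun e => Ka Y q n0 r c1 e + mB r (Ka Y q n0 r c1) e) f := by
    unfold H565.dv EE
    ring
  rw [e1, h1 f hf, h2 f hf]
  rfl

/-- the divergence of the total field -/
theorem isDiv_tot {Y V : ℝ} (hY : 0 < Y) {q n0 R r : ℕ} {κ x y s : ℝ} (hq : 1 ≤ q) (hr : 1 ≤ r)
    (hs : 0 < s) (hx : s < x) (hx1 : s + x < 1) (hy : s < y) (hy1 : s + y < 1) (c1 : ℝ) :
    IsDiv (SB R r) (fun e => EE Y V q n0 r κ x y s c1 e + Bz Y q n0 r c1 e)
      (D.rho Y V q n0 r κ x y s) := by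
  have h1 := isDiv_EE (Y := Y) (V := V) (R := R) (n0 := n0) (κ := κ) hq hr hs hx hx1 hy hy1 c1
  have h2 := isDiv_Bz (R := R) (n0 := n0) (r := r) hY hq c1
  rw [isDiv_iff] at h1 h2 ⊢
  intro f hf
  rw [dv_add, h1 f hf, h2 f hf]
  unfold rho1
  ring

end Vale.Agent.P159.T1.S.H546
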